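import Vale.Agent.P267.H334.Trace

/-!
# P267, package XA-MAX (helper334), part 2: curvature of a rank one projector

In coordinates: `P` a smooth orthogonal projector of rank one, `s` a section (`P s = s`) with
`P ∂̄_i s + a_i s = 0`. Where `s ≠ 0`,
`∂_i ∂̄_j log |s|² = -(tr (P [∂_i P, ∂̄_j P]) + ∂_i a_j + ∂̄_j conj a_i)`.
-/

set_option linter.unusedVariables false
set_option linter.unusedSectionVars false

open scoped Manifold ContDiff ComplexConjugate Matrix ComplexOrder
open MeasureTheory Set Filter Topology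

noncomputable section

namespace Vale.Agent.P267.H334

open FL

variable {ι : Type*} [Fintype ι] [DecidableEq ι]

/-- `⟨s, t⟩`, conjugate linear in `s` -/
def ip (s t : ι → ℂ) : ℂ := ∑ k, conj (s k) * t k

theorem ip_add (s t t' : ι → ℂ) : ip s (t + t') = ip s t + ip s t' := by
  simp [ip, mul_add, Finset.sum_add_distrib]

theorem ip_smul (s t : ι → ℂ) (c : ℂ) : ip s (c • t) = c * ip s t := by
  simp only [ip, Pi.smul_apply, smul_eq_mul, Finset.mul_sum]
  exact Finset.sum_congr rfl fun k _ => by ring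

theorem ip_sub (s t t' : ι → ℂ) : ip s (t - t') = ip s t - ip s t' := by
  simp [ip, mul_sub, Finset.sum_sub_distrib]

theorem conj_ip (s t : ι → ℂ) : conj (ip s t) = ip t s := by
  simp only [ip, map_sum, map_mul, Complex.conj_conj]
  exact Finset.sum_congr rfl fun k _ => by ring

theorem ip_mulVec (A : Matrix ι ι ℂ) (s t : ι → ℂ) : ip s (A *ᵥ t) = ip (Aᴴ *ᵥ s) t := by
  simp only [ip, Matrix.mulVec, dotProduct, Finset.mul_sum, map_sum, map_mul,
    Matrix.conjTranspose_apply, RCLike.star_def, Complex.conj_conj, Finset.sum_mul]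
  rw [Finset.sum_comm]
  exact Finset.sum_congr rfl fun k _ => Finset.sum_congr rfl fun l _ => by ring

theorem ip_self_eq (s : ι → ℂ) : ip s s = ((∑ k, ‖s k‖ ^ 2 : ℝ) : ℂ) := by
  simp only [ip, Complex.ofReal_sum, Complex.ofReal_pow]
  exact Finset.sum_congr rfl fun k _ => Complex.conj_mul' (s k)

theorem ip_self_pos {s : ι → ℂ} (h : s ≠ 0) : 0 < ∑ k, ‖s k‖ ^ 2 := by
  obtain ⟨k, hk⟩ := Function.ne_iff.1 h
  refine Finset.sum_pos' (fun i _ => by positivity) ⟨k, Finset.mem_univ k, ?_⟩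
  have : 0 < ‖s k‖ := norm_pos_iff.2 hk
  positivity

theorem ip_self_ne {s : ι → ℂ} (h : s ≠ 0) : ip s s ≠ 0 := by
  rw [ip_self_eq]
  exact_mod_cast (ip_self_pos h).ne'

/-- an orthogonal projector of trace one is the projector onto any of its nonzero vectors -/
theorem rank_one {P : Matrix ι ι ℂ} (hh : Pᴴ = P) (hi : P * P = P) (ht : P.trace = 1)
    {s : ι → ℂ} (hs : P *ᵥ s = s) (h0 : s ≠ 0) (k l : ι) :
    P k l * ip s s = s k * conj (s l) := by
  have hN := ip_self_ne h0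
  have hNc : conj (ip s s) = ip s s := conj_ip s s
  obtain ⟨R, hRa⟩ : ∃ R : Matrix ι ι ℂ, ∀ i j, R i j = (ip s s)⁻¹ * (s i * conj (s j)) :=
    ⟨Matrix.of fun i j => (ip s s)⁻¹ * (s i * conj (s j)), fun i j => rfl⟩
  have hRh : Rᴴ = R := by
    ext i j
    rw [Matrix.conjTranspose_apply, hRa, hRa]
    simp only [RCLike.star_def, map_mul, map_inv₀, hNc, Complex.conj_conj]
    ring
  have hPR : P * R = R := by
    ext i j
    rw [Matrix.mul_apply, hRa]
    have h1 : ∑ x, P i x * s x = s i := congrFun hs i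
    simp only [hRa]
    rw [← h1, Finset.sum_mul, Finset.mul_sum]
    exact Finset.sum_congr rfl fun x _ => by ring
  have hRP : R * P = R := by
    have := congrArg Matrix.conjTranspose hPR
    rwa [Matrix.conjTranspose_mul, hRh, hh] at this
  have hRR : R * R = R := by
    ext i j
    rw [Matrix.mul_apply, hRa]
    simp only [hRa]
    have : ∑ x, (ip s s)⁻¹ * (s i * conj (s x)) * ((ip s s)⁻¹ * (s x * conj (s j))) =
        (ip s s)⁻¹ * (ip s s)⁻¹ * (s i * conj (s j)) * ip s s := by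
      conv_rhs => rw [show ip s s = ∑ x, conj (s x) * s x from rfl, Finset.mul_sum]
      exact Finset.sum_congr rfl fun k _ => by simp only [ip]; ring
    rw [this]
    field_simp
  have hRt : R.trace = 1 := by
    simp only [Matrix.trace, Matrix.diag_apply, hRa]
    rw [← Finset.mul_sum]
    have : ∑ x, s x * conj (s x) = ip s s := by
      simp only [ip]
      exact Finset.sum_congr rfl fun k _ => by ring
    rw [this, inv_mul_cancel₀ hN]
  have hQ : (P - R)ᴴ * (P - R) = P - R := by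
    rw [Matrix.conjTranspose_sub, hh, hRh, Matrix.sub_mul, Matrix.mul_sub, Matrix.mul_sub, hi,
      hPR, hRP, hRR]
    simp
  have hQt : ((P - R)ᴴ * (P - R)).trace = 0 := by
    rw [hQ, Matrix.trace_sub, ht, hRt, sub_self]
  have hQ0 : P - R = 0 := Matrix.trace_conjTranspose_mul_self_eq_zero_iff.1 hQt
  have hPeq : P = R := sub_eq_zero.1 hQ0
  rw [hPeq, hRa]
  field_simp

/-- if `P` is the projector onto `s` and `s` is an eigenvector of `A` then `tr (P A)` is the
eigenvalue -/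
theorem trace_of_eig {P A : Matrix ι ι ℂ} (hh : Pᴴ = P) (hi : P * P = P) (ht : P.trace = 1)
    {s : ι → ℂ} (hs : P *ᵥ s = s) (h0 : s ≠ 0) {c : ℂ} (hA : A *ᵥ s = c • s) :
    (P * A).trace = c := by
  have hN := ip_self_ne h0
  have h1 : (P * A).trace * ip s s = c * ip s s := by
    have e1 : (P * A).trace * ip s s = ∑ k, ∑ l, A l k * (s k * conj (s l)) := by
      simp only [Matrix.trace, Matrix.diag_apply, Matrix.mul_apply, Finset.sum_mul]
      refine Finset.sum_congr rfl fun k _ => Finset.sum_congr rfl fun l _ => ?_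
      rw [← rank_one hh hi ht hs h0 k l]
      ring
    have e2 : ∑ k, ∑ l, A l k * (s k * conj (s l)) = ip s (A *ᵥ s) := by
      simp only [ip, Matrix.mulVec, dotProduct, Finset.mul_sum]
      rw [Finset.sum_comm]
      exact Finset.sum_congr rfl fun k _ => Finset.sum_congr rfl fun l _ => by ring
    rw [e1, e2, hA, ip_smul]
  exact mul_right_cancel₀ hN h1

/-- first order derivations -/
structure IsDer (D : (C2 → ℂ) → C2 → ℂ) : Prop where
  congr : ∀ {f g : C2 → ℂ} {z : C2}, f =ᶠ[𝓝 z] g → D f z = D g z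
  mul : ∀ {f g : C2 → ℂ} {z : C2}, DifferentiableAt ℝ f z → DifferentiableAt ℝ g z →
    D (fun y => f y * g y) z = f z * D g z + D f z * g z
  add : ∀ {f g : C2 → ℂ} {z : C2}, DifferentiableAt ℝ f z → DifferentiableAt ℝ g z →
    D (fun y => f y + g y) z = D f z + D g z
  const : ∀ (c : ℂ) (z : C2), D (fun _ => c) z = 0

theorem IsDer.sum {D : (C2 → ℂ) → C2 → ℂ} (hD : IsDer D) {κ : Type*} (S : Finset κ)
    {f : κ → C2 → ℂ} {z : C2} (hf : ∀ i ∈ S, DifferentiableAt ℝ (f i) z) :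
    D (fun y => ∑ i ∈ S, f i y) z = ∑ i ∈ S, D (f i) z := by
  classical
  induction S using Finset.induction_on with
  | empty => simpa using hD.const 0 z
  | insert i s hi ih =>
    simp only [Finset.sum_insert hi]
    rw [hD.add (hf i (by simp)) (DifferentiableAt.fun_sum fun k hk => hf k (by simp [hk])),
      ih fun k hk => hf k (by simp [hk])]

theorem isDer_dz (j : Fin 2) : IsDer (dz (V := ℂ) j) where
  congr h := dz_congr h j
  mul hf hg := dz_mul hf hg j
  add hf hg := dz_add hf hg j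
  const c z := dz_const c z j

theorem isDer_dzb (j : Fin 2) : IsDer (dzb (V := ℂ) j) where
  congr h := dzb_congr h j
  mul hf hg := dzb_mul hf hg j
  add hf hg := dzb_add hf hg j
  const c z := dzb_const c z j

/-- entrywise derivative of a matrix -/
def DM (D : (C2 → ℂ) → C2 → ℂ) (P : C2 → Matrix ι ι ℂ) (z : C2) : Matrix ι ι ℂ :=
  Matrix.of fun k l => D (fun y => P y k l) z

/-- entrywise derivative of a vector -/
def DV (D : (C2 → ℂ) → C2 → ℂ) (s : C2 → ι → ℂ) (z : C2) : ι → ℂ := fun k => D (fun y => s y k) z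

section der

variable {D : (C2 → ℂ) → C2 → ℂ} {P Q : C2 → Matrix ι ι ℂ} {s t : C2 → ι → ℂ} {z : C2}

theorem DV_congr (hD : IsDer D) (h : s =ᶠ[𝓝 z] t) : DV D s z = DV D t z :=
  funext fun k => hD.congr (h.mono fun y hy => congrFun hy k)

theorem DM_congr (hD : IsDer D) (h : P =ᶠ[𝓝 z] Q) : DM D P z = DM D Q z := by
  ext k l
  exact hD.congr (h.mono fun y hy => congrFun (congrFun hy k) l)

theorem DV_mulVec (hD : IsDer D) (hP : ∀ k l, DifferentiableAt ℝ (fun y => P y k l) z)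
    (hs : ∀ k, DifferentiableAt ℝ (fun y => s y k) z) :
    DV D (fun y => P y *ᵥ s y) z = P z *ᵥ DV D s z + DM D P z *ᵥ s z := by
  funext k
  have e : (fun y => (P y *ᵥ s y) k) = fun y => ∑ l, P y k l * s y l := rfl
  change D (fun y => (P y *ᵥ s y) k) z = _
  rw [e, hD.sum _ fun l _ => (hP k l).fun_mul (hs l)]
  simp only [Pi.add_apply, Matrix.mulVec, dotProduct, DV, DM, Matrix.of_apply]
  rw [← Finset.sum_add_distrib]
  exact Finset.sum_congr rfl fun l _ => hD.mul (hP k l) (hs l)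

theorem DV_add (hD : IsDer D) (hs : ∀ k, DifferentiableAt ℝ (fun y => s y k) z)
    (ht : ∀ k, DifferentiableAt ℝ (fun y => t y k) z) :
    DV D (fun y => s y + t y) z = DV D s z + DV D t z := by
  funext k
  exact hD.add (hs k) (ht k)

theorem DV_smul (hD : IsDer D) {c : C2 → ℂ} (hc : DifferentiableAt ℝ c z)
    (hs : ∀ k, DifferentiableAt ℝ (fun y => s y k) z) :
    DV D (fun y => c y • s y) z = c z • DV D s z + D c z • s z := by
  funext k
  exact hD.mul hc (hs k)

theorem DM_mul (hD : IsDer D) (hP : ∀ k l, DifferentiableAt ℝ (fun y => P y k l) z)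
    (hQ : ∀ k l, DifferentiableAt ℝ (fun y => Q y k l) z) :
    DM D (fun y => P y * Q y) z = P z * DM D Q z + DM D P z * Q z := by
  ext k l
  have e : (fun y => (P y * Q y) k l) = fun y => ∑ m, P y k m * Q y m l :=
    funext fun y => Matrix.mul_apply
  change D (fun y => (P y * Q y) k l) z = _
  rw [e, hD.sum _ fun m _ => (hP k m).fun_mul (hQ m l)]
  simp only [Matrix.add_apply, Matrix.mul_apply, DM, Matrix.of_apply]
  rw [← Finset.sum_add_distrib]
  exact Finset.sum_congr rfl fun m _ => hD.mul (hP k m) (hQ m l)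

/-- `s^* (DP) s = 0` -/
theorem ip_DM_mulVec (hD : IsDer D) (hP : ∀ k l, DifferentiableAt ℝ (fun y => P y k l) z)
    (herm : (P z)ᴴ = P z) (idem : ∀ᶠ y in 𝓝 z, P y * P y = P y) (sec : P z *ᵥ s z = s z) :
    ip (s z) (DM D P z *ᵥ s z) = 0 := by
  have h1 : DM D P z = P z * DM D P z + DM D P z * P z := by
    rw [← DM_mul hD hP hP]
    exact (DM_congr hD idem).symm
  have h2 : ip (s z) (DM D P z *ᵥ s z) =
      ip (s z) (DM D P z *ᵥ s z) + ip (s z) (DM D P z *ᵥ s z) := by
    conv_lhs => rw [h1]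
    rw [Matrix.add_mulVec, ip_add, ← Matrix.mulVec_mulVec, ← Matrix.mulVec_mulVec, sec,
      ip_mulVec (P z), herm, sec]
  exact left_eq_add.1 h2

/-- the projector applied to a vector -/
theorem proj_apply {P : Matrix ι ι ℂ} (hh : Pᴴ = P) (hi : P * P = P) (ht : P.trace = 1)
    {s : ι → ℂ} (hs : P *ᵥ s = s) (h0 : s ≠ 0) (t : ι → ℂ) :
    P *ᵥ t = (ip s t / ip s s) • s := by
  have hN := ip_self_ne h0
  funext k
  rw [Pi.smul_apply, smul_eq_mul, div_mul_eq_mul_div, eq_div_iff hN]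
  simp only [Matrix.mulVec, dotProduct, ip, Finset.sum_mul]
  refine Finset.sum_congr rfl fun l _ => ?_
  have := rank_one hh hi ht hs h0 k l
  have e : P k l * t l * ip s s = (s k * conj (s l)) * t l := by rw [← this]; ring
  simp only [ip] at e
  rw [e]
  ring

/-- derivative of a section -/
theorem DV_sec (hD : IsDer D) (hP : ∀ k l, DifferentiableAt ℝ (fun y => P y k l) z)
    (hs : ∀ k, DifferentiableAt ℝ (fun y => s y k) z)
    (sec : ∀ᶠ y in 𝓝 z, P y *ᵥ s y = s y) :
    DV D s z = P z *ᵥ DV D s z + DM D P z *ᵥ s z := by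
  rw [← DV_mulVec hD hP hs]
  exact (DV_congr hD sec).symm

end der

/-- local situation: `P` a smooth rank one orthogonal projector near `z`, `s` a holomorphic section
for the holomorphic structure `a` -/
structure Loc (P : C2 → Matrix ι ι ℂ) (s : C2 → ι → ℂ) (a : C2 → Fin 2 → ℂ) (z : C2) : Prop where
  hP : ∀ k l, ContDiffAt ℝ 2 (fun y => P y k l) z
  hs : ∀ k, ContDiffAt ℝ 2 (fun y => s y k) z
  ha : ∀ j, DifferentiableAt ℝ (fun y => a y j) z
  herm : ∀ᶠ y in 𝓝 z, (P y)ᴴ = P y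
  idem : ∀ᶠ y in 𝓝 z, P y * P y = P y
  tr : ∀ᶠ y in 𝓝 z, (P y).trace = 1
  sec : ∀ᶠ y in 𝓝 z, P y *ᵥ s y = s y
  hol : ∀ᶠ y in 𝓝 z, ∀ i, P y *ᵥ DV (dzb i) s y + a y i • s y = 0

namespace Loc

variable {P : C2 → Matrix ι ι ℂ} {s : C2 → ι → ℂ} {a : C2 → Fin 2 → ℂ} {z : C2}

theorem hP1 (h : Loc P s a z) :
    ∀ᶠ y in 𝓝 z, ∀ k l, DifferentiableAt ℝ (fun w => P w k l) y := by
  rw [Filter.eventually_all]
  intro k
  rw [Filter.eventually_all]
  intro l
  exact ((h.hP k l).eventually (by simp)).mono fun y hy => hy.differentiableAt (by norm_num)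

theorem hs1 (h : Loc P s a z) : ∀ᶠ y in 𝓝 z, ∀ k, DifferentiableAt ℝ (fun w => s w k) y := by
  rw [Filter.eventually_all]
  intro k
  exact ((h.hs k).eventually (by simp)).mono fun y hy => hy.differentiableAt (by norm_num)

/-- `λ_j = ⟨s, ∂_j s⟩ / ⟨s, s⟩` -/
def lam (s : C2 → ι → ℂ) (j : Fin 2) (y : C2) : ℂ := ip (s y) (DV (dz j) s y) / ip (s y) (s y)

theorem ne_ev (h : Loc P s a z) (h0 : s z ≠ 0) : ∀ᶠ y in 𝓝 z, s y ≠ 0 := by
  have hc : ContinuousAt s z := continuousAt_pi.2 fun k => (h.hs k).continuousAt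
  exact hc.eventually_ne h0

/-- `∂_j s = λ_j s + (∂_j P) s` -/
theorem del_s (h : Loc P s a z) (h0 : s z ≠ 0) (j : Fin 2) :
    ∀ᶠ y in 𝓝 z, DV (dz j) s y = lam s j y • s y + DM (dz j) P y *ᵥ s y := by
  filter_upwards [h.hP1, h.hs1, h.sec.eventually_nhds, h.herm, h.idem, h.tr, h.ne_ev h0]
    with y h1 h2 h3 h4 h5 h6 h7
  have e := DV_sec (isDer_dz j) h1 h2 h3
  rw [proj_apply h4 h5 h6 h3.self_of_nhds h7] at e
  exact e

/-- `∂̄_j s = -a_j s + (∂̄_j P) s` -/
theorem delb_s (h : Loc P s a z) (j : Fin 2) :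
    ∀ᶠ y in 𝓝 z, DV (dzb j) s y = (-a y j) • s y + DM (dzb j) P y *ᵥ s y := by
  filter_upwards [h.hP1, h.hs1, h.sec.eventually_nhds, h.hol] with y h1 h2 h3 h4
  have e := DV_sec (isDer_dzb j) h1 h2 h3
  have e2 := h4 j
  rw [add_eq_zero_iff_eq_neg] at e2
  rw [e2] at e
  rw [neg_smul]
  exact e

theorem contDiffAt_ip {s t : C2 → ι → ℂ} {z : C2} {n : WithTop ℕ∞}
    (hs : ∀ k, ContDiffAt ℝ n (fun y => s y k) z) (ht : ∀ k, ContDiffAt ℝ n (fun y => t y k) z) :
    ContDiffAt ℝ n (fun y => ip (s y) (t y)) z := by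
  unfold ip
  exact ContDiffAt.sum fun k _ => (Complex.conjCLE.contDiff.contDiffAt.comp z (hs k)).mul (ht k)

theorem lam_diff (h : Loc P s a z) (h0 : s z ≠ 0) (j : Fin 2) :
    DifferentiableAt ℝ (lam s j) z := by
  have h1 : ContDiffAt ℝ 1 (fun y => ip (s y) (DV (dz j) s y)) z :=
    contDiffAt_ip (fun k => (h.hs k).of_le (by norm_num))
      fun k => contDiffAt_dz (h.hs k) (by norm_num) j
  have h2 : ContDiffAt ℝ 1 (fun y => ip (s y) (s y)) z :=
    contDiffAt_ip (fun k => (h.hs k).of_le (by norm_num)) fun k => (h.hs k).of_le (by norm_num)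
  have e : lam s j = fun y => ip (s y) (DV (dz j) s y) * (ip (s y) (s y))⁻¹ :=
    funext fun y => div_eq_mul_inv _ _
  rw [e]
  exact (h1.mul (h2.inv (ip_self_ne h0))).differentiableAt (by norm_num)

/-- the eigenvalue of the curvature -/
theorem curv_eig (h : Loc P s a z) (h0 : s z ≠ 0) (i j : Fin 2) :
    (DM (dz j) P z * DM (dzb i) P z - DM (dzb i) P z * DM (dz j) P z) *ᵥ s z =
      (-(dzb i (lam s j) z + dz j (fun y => a y i) z)) • s z := by
  have hs1 : ∀ k, DifferentiableAt ℝ (fun y => s y k) z := fun k =>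
    (h.hs k).differentiableAt (by norm_num)
  have hXd : ∀ k l, DifferentiableAt ℝ (fun y => DM (dz j) P y k l) z := fun k l =>
    (contDiffAt_dz (m := 1) (h.hP k l) (by norm_num) j).differentiableAt (by norm_num)
  have hYd : ∀ k l, DifferentiableAt ℝ (fun y => DM (dzb i) P y k l) z := fun k l =>
    (contDiffAt_dzb (m := 1) (h.hP k l) (by norm_num) i).differentiableAt (by norm_num)
  have hld := h.lam_diff h0 j
  have hXs : ∀ k, DifferentiableAt ℝ (fun y => (DM (dz j) P y *ᵥ s y) k) z := fun k => by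
    have e : (fun y => (DM (dz j) P y *ᵥ s y) k) = fun y => ∑ l, DM (dz j) P y k l * s y l := rfl
    rw [e]
    exact DifferentiableAt.fun_sum fun l _ => (hXd k l).fun_mul (hs1 l)
  have hYs : ∀ k, DifferentiableAt ℝ (fun y => (DM (dzb i) P y *ᵥ s y) k) z := fun k => by
    have e : (fun y => (DM (dzb i) P y *ᵥ s y) k) = fun y => ∑ l, DM (dzb i) P y k l * s y l :=
      rfl
    rw [e]
    exact DifferentiableAt.fun_sum fun l _ => (hYd k l).fun_mul (hs1 l)
  -- `∂̄_i` of the formula for `∂_j s`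
  have e1 : DV (dzb i) (DV (dz j) s) z = (lam s j z • DV (dzb i) s z +
      dzb i (lam s j) z • s z) + (DM (dz j) P z *ᵥ DV (dzb i) s z +
      DM (dzb i) (DM (dz j) P) z *ᵥ s z) := by
    rw [DV_congr (isDer_dzb i) (h.del_s h0 j),
      DV_add (s := fun y => lam s j y • s y) (t := fun y => DM (dz j) P y *ᵥ s y) (isDer_dzb i)
        (fun k => hld.fun_mul (hs1 k)) hXs,
      DV_smul (isDer_dzb i) hld hs1, DV_mulVec (isDer_dzb i) hXd hs1]
  -- `∂_j` of the formula for `∂̄_i s`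
  have e2 : DV (dz j) (DV (dzb i) s) z = ((-a z i) • DV (dz j) s z +
      (dz j (fun y => -a y i) z) • s z) + (DM (dzb i) P z *ᵥ DV (dz j) s z +
      DM (dz j) (DM (dzb i) P) z *ᵥ s z) := by
    rw [DV_congr (isDer_dz j) (h.delb_s i),
      DV_add (s := fun y => (-a y i) • s y) (t := fun y => DM (dzb i) P y *ᵥ s y) (isDer_dz j)
        (fun k => (h.ha i).fun_neg.fun_mul (hs1 k)) hYs,
      DV_smul (isDer_dz j) (h.ha i).fun_neg hs1, DV_mulVec (isDer_dz j) hYd hs1]
  have e3 : DV (dzb i) (DV (dz j) s) z = DV (dz j) (DV (dzb i) s) z :=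
    funext fun k => (dz_dzb_comm (h.hs k) j i).symm
  have e4 : DM (dzb i) (DM (dz j) P) z = DM (dz j) (DM (dzb i) P) z := by
    ext k l
    exact (dz_dzb_comm (h.hP k l) j i).symm
  rw [e1, e2, e4, (h.del_s h0 j).self_of_nhds, (h.delb_s i).self_of_nhds, dz_neg] at e3
  rw [Matrix.sub_mulVec, ← Matrix.mulVec_mulVec, ← Matrix.mulVec_mulVec]
  simp only [Matrix.mulVec_add, Matrix.mulVec_smul] at e3
  funext k
  have e5 := congrFun e3 k
  simp only [Pi.add_apply, Pi.smul_apply, Pi.sub_apply, smul_eq_mul] at e5 ⊢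
  linear_combination e5

theorem curv_trace (h : Loc P s a z) (h0 : s z ≠ 0) (i j : Fin 2) :
    (P z * (DM (dz j) P z * DM (dzb i) P z - DM (dzb i) P z * DM (dz j) P z)).trace =
      -(dzb i (lam s j) z + dz j (fun y => a y i) z) :=
  trace_of_eig h.herm.self_of_nhds h.idem.self_of_nhds h.tr.self_of_nhds h.sec.self_of_nhds h0
    (h.curv_eig h0 i j)

/-- the squared norm -/
def nn (s : C2 → ι → ℂ) (y : C2) : ℝ := ∑ k, ‖s y k‖ ^ 2

theorem nn_eq (s : C2 → ι → ℂ) (y : C2) : ((nn s y : ℝ) : ℂ) = ip (s y) (s y) :=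
  (ip_self_eq _).symm

theorem contDiffAt_nn {s : C2 → ι → ℂ} {z : C2} {n : WithTop ℕ∞}
    (hs : ∀ k, ContDiffAt ℝ n (fun y => s y k) z) : ContDiffAt ℝ n (nn s) z := by
  have h : nn s = fun y => Complex.reCLM (ip (s y) (s y)) := by
    funext y
    rw [Complex.reCLM_apply, ← nn_eq, Complex.ofReal_re]
  rw [h]
  exact Complex.reCLM.contDiff.contDiffAt.comp z (contDiffAt_ip hs hs)

/-- Wirtinger derivatives of the logarithm of a positive function -/
theorem dzb_log {φ : C2 → ℝ} {z : C2} (hφ : DifferentiableAt ℝ φ z) (h0 : φ z ≠ 0) (j : Fin 2) :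
    dzb j (fun y => ((Real.log (φ y) : ℝ) : ℂ)) z = (φ z : ℂ)⁻¹ * dzb j (fun y => (φ y : ℂ)) z := by
  have h1 : ∀ v, fderiv ℝ (fun y => ((Real.log (φ y) : ℝ) : ℂ)) z v =
      (φ z : ℂ)⁻¹ * fderiv ℝ (fun y => (φ y : ℂ)) z v := by
    intro v
    rw [fderiv_ofReal (φ := fun y => Real.log (φ y)) (hφ.log h0), fderiv_ofReal hφ,
      (hφ.hasFDerivAt.log h0).fderiv]
    simp
  unfold dzb
  rw [h1, h1]
  simp only [smul_eq_mul]
  ring

theorem dz_log {φ : C2 → ℝ} {z : C2} (hφ : DifferentiableAt ℝ φ z) (h0 : φ z ≠ 0) (j : Fin 2) :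
    dz j (fun y => ((Real.log (φ y) : ℝ) : ℂ)) z = (φ z : ℂ)⁻¹ * dz j (fun y => (φ y : ℂ)) z := by
  have h1 : ∀ v, fderiv ℝ (fun y => ((Real.log (φ y) : ℝ) : ℂ)) z v =
      (φ z : ℂ)⁻¹ * fderiv ℝ (fun y => (φ y : ℂ)) z v := by
    intro v
    rw [fderiv_ofReal (φ := fun y => Real.log (φ y)) (hφ.log h0), fderiv_ofReal hφ,
      (hφ.hasFDerivAt.log h0).fderiv]
    simp
  unfold dz
  rw [h1, h1]
  simp only [smul_eq_mul]
  ring

/-- `∂̄_j ⟨s, s⟩` -/
theorem dzb_ip_self {s : C2 → ι → ℂ} {z : C2} (hs : ∀ k, DifferentiableAt ℝ (fun y => s y k) z)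
    (j : Fin 2) : dzb j (fun y => ip (s y) (s y)) z =
      ip (s z) (DV (dzb j) s z) + conj (ip (s z) (DV (dz j) s z)) := by
  rw [conj_ip]
  unfold ip
  rw [dzb_sum _ fun k _ => (differentiableAt_conj (hs k)).fun_mul (hs k), ← Finset.sum_add_distrib]
  refine Finset.sum_congr rfl fun k _ => ?_
  rw [dzb_mul (differentiableAt_conj (hs k)) (hs k), dzb_conj (hs k)]
  rfl

/-- `∂̄_j log |s|² = conj λ_j - a_j` near `z` -/
theorem dzb_log_nn (h : Loc P s a z) (h0 : s z ≠ 0) (j : Fin 2) :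
    ∀ᶠ y in 𝓝 z, dzb j (fun y => ((Real.log (nn s y) : ℝ) : ℂ)) y = conj (lam s j y) - a y j := by
  filter_upwards [h.hP1, h.hs1, h.sec.eventually_nhds, h.herm, h.idem.eventually_nhds,
    h.ne_ev h0, h.del_s h0 j, h.delb_s j] with y h1 h2 h3 h4 h5 h7 h8 h9
  have hN := ip_self_ne h7
  have hn : nn s y ≠ 0 := (ip_self_pos h7).ne'
  have hd : DifferentiableAt ℝ (nn s) y := by
    have e : nn s = fun y => Complex.reCLM (ip (s y) (s y)) := by
      funext y
      rw [Complex.reCLM_apply, ← nn_eq, Complex.ofReal_re]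
    rw [e]
    refine Complex.reCLM.differentiableAt.comp y ?_
    unfold ip
    exact DifferentiableAt.fun_sum fun k _ => (differentiableAt_conj (h2 k)).fun_mul (h2 k)
  rw [dzb_log hd hn]
  simp only [nn_eq]
  rw [dzb_ip_self h2, h9, h8, ip_add, ip_add, ip_smul, ip_smul,
    ip_DM_mulVec (isDer_dz j) h1 h4 h5 h3.self_of_nhds,
    ip_DM_mulVec (isDer_dzb j) h1 h4 h5 h3.self_of_nhds]
  simp only [add_zero, map_mul, conj_ip]
  field_simp
  ring

/-- MAIN: `∂∂̄ log |s|²` is minus the curvature of the Chern connection -/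
theorem lv_log_nn (h : Loc P s a z) (h0 : s z ≠ 0) (i j : Fin 2) :
    lv (fun y => ((Real.log (nn s y) : ℝ) : ℂ)) z i j =
      -((P z * (DM (dz i) P z * DM (dzb j) P z - DM (dzb j) P z * DM (dz i) P z)).trace +
        dz i (fun y => a y j) z + dzb j (fun y => conj (a y i)) z) := by
  have hld := h.lam_diff h0 j
  rw [lv_apply, dz_congr (h.dzb_log_nn h0 j), dz_sub (differentiableAt_conj hld) (h.ha j),
    dz_conj hld, dzb_conj (h.ha i)]
  have h1 := h.curv_trace h0 i j
  have h2 : conj ((P z * (DM (dz j) P z * DM (dzb i) P z -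
      DM (dzb i) P z * DM (dz j) P z)).trace) =
      (P z * (DM (dz i) P z * DM (dzb j) P z - DM (dzb j) P z * DM (dz i) P z)).trace := by
    have hX : ∀ m, (DM (dz m) P z)ᴴ = DM (dzb m) P z := by
      intro m
      ext k l
      rw [Matrix.conjTranspose_apply]
      change conj (dz m (fun y => P y l k) z) = dzb m (fun y => P y k l) z
      rw [← dzb_conj ((h.hP l k).differentiableAt (by norm_num))]
      refine dzb_congr ?_ m
      filter_upwards [h.herm] with y hy
      exact congrFun (congrFun hy k) l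
    have hY : ∀ m, (DM (dzb m) P z)ᴴ = DM (dz m) P z := fun m => by
      rw [← hX m, Matrix.conjTranspose_conjTranspose]
    have h3 : conj ((P z * (DM (dz j) P z * DM (dzb i) P z -
        DM (dzb i) P z * DM (dz j) P z)).trace) =
        ((P z * (DM (dz j) P z * DM (dzb i) P z -
          DM (dzb i) P z * DM (dz j) P z))ᴴ).trace := by
      rw [Matrix.trace_conjTranspose]
      rfl
    rw [h3, Matrix.conjTranspose_mul, Matrix.conjTranspose_sub, Matrix.conjTranspose_mul,
      Matrix.conjTranspose_mul, hX, hY, h.herm.self_of_nhds, Matrix.trace_mul_comm]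
  rw [← h2, h1, map_neg, map_add]
  ring

end Loc

end Vale.Agent.P267.H334
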