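import Vale.Agent.P267.H399.Calc
import Vale.Agent.P267.H334.Curv

/-!
# P267, package XA-MAX (helper334), part 3: `∂∂̄ log |u|²` on the manifold
-/

set_option linter.unusedVariables false
set_option linter.unusedSectionVars false

open scoped Manifold ContDiff ComplexConjugate Matrix ComplexOrder
open MeasureTheory Set Filter Topology

noncomputable section

namespace Vale.Agent.P267.H334

open FL

variable {ι : Type} [Fintype ι] [DecidableEq ι]
variable {X : Type*} [TopologicalSpace X] [ChartedSpace C2 X] [IsManifold 𝓘(ℂ, C2) ω X]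

theorem two_le_inf : (2 : WithTop ℕ∞) ≤ ∞ := by
  have h : ((2 : ℕ∞) : WithTop ℕ∞) ≤ ((⊤ : ℕ∞) : WithTop ℕ∞) := by
    rw [WithTop.coe_le_coe]; exact le_top
  exact h

theorem act_ofLp (M : Matrix ι ι ℂ) (v : EuclideanSpace ℂ ι) :
    (LB.act M v).ofLp = M *ᵥ v.ofLp := rfl

theorem dzb_ofLp {f : C2 → EuclideanSpace ℂ ι} {z : C2} (hf : DifferentiableAt ℝ f z) (i : Fin 2)
    (k : ι) : dzb i (fun y => (f y).ofLp k) z = (dzb i f z).ofLp k :=
  dzb_clm (EuclideanSpace.proj k : EuclideanSpace ℂ ι →L[ℂ] ℂ) hf i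

theorem contDiffAt_ofLp {f : C2 → EuclideanSpace ℂ ι} {z : C2} {n : WithTop ℕ∞}
    (hf : ContDiffAt ℝ n f z) (k : ι) : ContDiffAt ℝ n (fun y => (f y).ofLp k) z :=
  ((EuclideanSpace.proj k : EuclideanSpace ℂ ι →L[ℂ] ℂ).restrictScalars ℝ).contDiff.contDiffAt.comp
    z hf

/-- a holomorphic section of `K^κ ⊗ (L, a)` in a chart -/
theorem loc_of {L : LB X ι} {a : X → Fin 2 → ℂ} {κ : ℤ} {u : X → EuclideanSpace ℂ ι}
    (ha : Reg1 ∞ 0 a) (hu : Reg0 ∞ κ u) (hs : L.Sec u) (hol : ∀ x, L.db0 a κ u x = 0)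
    {e : Ch X} (he : e ∈ atlas C2 X) {z : C2} (hz : z ∈ e.target) :
    Loc (fun y => L.P (e.symm y)) (fun y => (loc0 κ e u y).ofLp) (fun y => loc1 0 e a y) z where
  hP k l := by
    have h := (L.smooth k l).contDiffAt he hz
    rw [LB.loc0_zero] at h
    exact h.of_le two_le_inf
  hs k := contDiffAt_ofLp ((hu.contDiffAt he hz).of_le two_le_inf) k
  ha j := by
    have h := (ha.contDiffAt he hz).differentiableAt (by simp)
    exact differentiableAt_pi.1 h j
  herm := Eventually.of_forall fun y => L.herm _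
  idem := Eventually.of_forall fun y => L.idem _
  tr := Eventually.of_forall fun y => L.tr _
  sec := Eventually.of_forall fun y => by
    have h1 : L.P (e.symm y) *ᵥ (u (e.symm y)).ofLp = (u (e.symm y)).ofLp :=
      congrArg WithLp.ofLp (hs (e.symm y))
    simp only [loc0, WithLp.ofLp_smul, Matrix.mulVec_smul, h1]
  hol := by
    filter_upwards [e.open_target.mem_nhds hz] with y hy
    intro i
    have hd : DifferentiableAt ℝ (loc0 κ e u) y :=
      (hu.contDiffAt he hy).differentiableAt (by simp)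
    have h1 : DV (dzb i) (fun y => (loc0 κ e u y).ofLp) y = (loc1 κ e (dbar0 κ u) y i).ofLp := by
      funext k
      rw [loc1_dbar0 he hy hd]
      exact dzb_ofLp hd i k
    have h2 : ∀ p, L.P (e.symm y) *ᵥ (dbar0 κ u (e.symm y) p).ofLp =
        -(a (e.symm y) p • (u (e.symm y)).ofLp) := by
      intro p
      have h3 := congrArg WithLp.ofLp (congrFun (hol (e.symm y)) p)
      simp only [LB.db0, WithLp.ofLp_add, WithLp.ofLp_smul, act_ofLp, Pi.zero_apply,
        WithLp.ofLp_zero] at h3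
      exact eq_neg_of_add_eq_zero_left h3
    rw [h1]
    simp only [loc1, loc0, WithLp.ofLp_smul, Fin.sum_univ_two, WithLp.ofLp_add,
      Matrix.mulVec_smul, Matrix.mulVec_add, h2, zpow_zero, smul_eq_mul]
    module

/-- the curvature form of `(L, a)` in the preferred chart -/
theorem chern_eq (L : LB X ι) (a : X → Fin 2 → ℂ) (ha : Reg1 ∞ 0 a) (x : X) (i j : Fin 2) :
    (L.chern a).f11 x i j =
      (L.P x * (DM (dz i) (fun y => L.P ((chartAt C2 x).symm y)) (chartAt C2 x x) *
          DM (dzb j) (fun y => L.P ((chartAt C2 x).symm y)) (chartAt C2 x x) -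
        DM (dzb j) (fun y => L.P ((chartAt C2 x).symm y)) (chartAt C2 x x) *
          DM (dz i) (fun y => L.P ((chartAt C2 x).symm y)) (chartAt C2 x x))).trace +
      dz i (fun y => loc1 0 (chartAt C2 x) a y j) (chartAt C2 x x) +
      dzb j (fun y => conj (loc1 0 (chartAt C2 x) a y i)) (chartAt C2 x x) := by
  have h1 : ∀ k, (Matrix.of fun i j => del0 (fun y => L.P y i j) x k) =
      DM (dz k) (fun y => L.P ((chartAt C2 x).symm y)) (chartAt C2 x x) := fun k => rfl
  have h2 : ∀ k, (Matrix.of fun i j => dbar0 0 (fun y => L.P y i j) x k) =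
      DM (dzb k) (fun y => L.P ((chartAt C2 x).symm y)) (chartAt C2 x x) := by
    intro k
    ext p q
    simp only [Matrix.of_apply, dbar0, LB.loc0_zero, DM]
    rfl
  have h3 : dbar10 (fun y i => -conj (a y i)) x i j =
      dzb j (fun y => conj (loc1 0 (chartAt C2 x) a y i)) (chartAt C2 x x) := by
    have e : (fun z => loc10 (chartAt C2 x) (fun y i => -conj (a y i)) z i) =
        fun z => -conj (loc1 0 (chartAt C2 x) a z i) := by
      funext z
      simp only [loc10, loc1, zpow_zero, smul_eq_mul, map_sum, map_mul,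
        Complex.conj_conj, mul_neg, Finset.sum_neg_distrib, one_mul]
    simp only [dbar10, Matrix.of_apply, e, dzb_neg, neg_neg]
  change (LB.F11 L x + (del1 a x + dbar10 (fun y i => -conj (a y i)) x)) i j = _
  rw [Matrix.add_apply, Matrix.add_apply, h3]
  simp only [LB.F11, Matrix.of_apply, h1, h2, del1]
  ring

/-- **(BW)** `∂∂̄ log |u|²` is minus the curvature, where `u ≠ 0` -/
theorem lv_log_section {L : LB X ι} {a : X → Fin 2 → ℂ} {κ : ℤ} {u : X → EuclideanSpace ℂ ι}
    (ha : Reg1 ∞ 0 a) (hu : Reg0 ∞ κ u) (hs : L.Sec u) (hol : ∀ x, L.db0 a κ u x = 0)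
    (x : X) (h0 : u x ≠ 0) :
    lv (fun y => ((Real.log (Loc.nn (fun z => (loc0 κ (chartAt C2 x) u z).ofLp) y) : ℝ) : ℂ))
      (chartAt C2 x x) = -(L.chern a).f11 x := by
  have hl := loc_of ha hu hs hol (chart_mem_atlas C2 x) (mem_chart_target C2 x)
  have h1 : (loc0 κ (chartAt C2 x) u (chartAt C2 x x)).ofLp ≠ 0 := by
    rw [loc0_chartAt]
    intro h
    exact h0 (by ext k; exact congrFun h k)
  ext i j
  rw [hl.lv_log_nn h1 i j, Matrix.neg_apply, chern_eq L a ha x i j,
    (chartAt C2 x).left_inv (mem_chart_source C2 x)]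

/-! ### the metric in charts -/

theorem loc11_eq (e : Ch X) (g : X → Matrix (Fin 2) (Fin 2) ℂ) (z : C2) :
    loc11 e g z = (jac e (e.symm z))ᵀ * g (e.symm z) * (jac e (e.symm z)).map conj := by
  ext i j
  simp only [loc11, Matrix.of_apply, Matrix.mul_apply, Matrix.transpose_apply, Matrix.map_apply,
    Fin.sum_univ_two, smul_eq_mul]
  ring

theorem det_loc11 (e : Ch X) (g : X → Matrix (Fin 2) (Fin 2) ℂ) (z : C2) :
    (loc11 e g z).det = ((‖(jac e (e.symm z)).det‖ ^ 2 : ℝ) : ℂ) * (g (e.symm z)).det := by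
  rw [loc11_eq, Matrix.det_mul, Matrix.det_mul, Matrix.det_transpose]
  have h1 : ((jac e (e.symm z)).map conj).det = conj (jac e (e.symm z)).det :=
    (RingHom.map_det (starRingEnd ℂ) _).symm
  rw [h1]
  have h2 := Complex.mul_conj' (jac e (e.symm z)).det
  push_cast
  rw [← h2]
  ring

variable {h : X → Matrix (Fin 2) (Fin 2) ℂ}

/-- the determinant of the metric in a chart -/
def dhl (h : X → Matrix (Fin 2) (Fin 2) ℂ) (e : Ch X) (z : C2) : ℝ := (loc11 e h z).det.re

theorem det_pos (hh : IsHerm h) (x : X) : 0 < (h x).det.re ∧ ((h x).det.re : ℂ) = (h x).det := by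
  have h1 := (hh.posDef x).det_pos
  rw [Complex.lt_def] at h1
  refine ⟨h1.1, ?_⟩
  apply Complex.ext
  · simp
  · simpa using h1.2

theorem dhl_eq (hh : IsHerm h) (e : Ch X) (z : C2) :
    dhl h e z = ‖(jac e (e.symm z)).det‖ ^ 2 * (h (e.symm z)).det.re := by
  rw [dhl, det_loc11, Complex.re_ofReal_mul]

theorem dhl_pos (hh : IsHerm h) {e : Ch X} (he : e ∈ atlas C2 X) {z : C2} (hz : z ∈ e.target) :
    0 < dhl h e z := by
  rw [dhl_eq hh]
  have := jac_det_ne_zero he (e.map_target hz)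
  have h2 : 0 < ‖(jac e (e.symm z)).det‖ := norm_pos_iff.2 this
  exact mul_pos (by positivity) (det_pos hh _).1

theorem dhl_smooth (hh : IsHerm h) {e : Ch X} (he : e ∈ atlas C2 X) :
    ContDiffOn ℝ ∞ (dhl h e) e.target := by
  have h1 := hh.smooth e he
  have h2 : dhl h e = fun z => Complex.reCLM (loc11 e h z 0 0 * loc11 e h z 1 1 -
      loc11 e h z 0 1 * loc11 e h z 1 0) := by
    funext z
    rw [dhl, Matrix.det_fin_two]
    rfl
  rw [h2]
  exact Complex.reCLM.contDiff.comp_contDiffOn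
    (((h1 0 0).mul (h1 1 1)).sub ((h1 0 1).mul (h1 1 0)))

theorem logdhl_smooth (hh : IsHerm h) {e : Ch X} (he : e ∈ atlas C2 X) :
    ContDiffOn ℝ ∞ (fun z => Real.log (dhl h e z)) e.target :=
  (dhl_smooth hh he).log fun z hz => (dhl_pos hh he hz).ne'

/-- trace of `∂∂̄ log det h` with respect to `h` -/
def ric (h : X → Matrix (Fin 2) (Fin 2) ℂ) (x : X) : ℝ :=
  (((h x)⁻¹ * lv (fun y => ((Real.log (dhl h (chartAt C2 x) y) : ℝ) : ℂ))
    (chartAt C2 x x)).trace).re

end Vale.Agent.P267.H334
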