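import Vale.Agent.P267.H334.Ric
import Vale.Agent.P267.H469.Del2
import Vale.Agent.P267.H877.Iface

/-!
# P267, package XA-MAX (helper334), part 6: regularity and invariance of the curvature traces
-/

set_option linter.unusedVariables false
set_option linter.unusedSectionVars false

open scoped Manifold ContDiff ComplexConjugate Matrix ComplexOrder
open MeasureTheory Set Filter Topology

noncomputable section

namespace Vale.Agent.P267.H334

open FL XT

variable {ι : Type} [Fintype ι] [DecidableEq ι]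
variable {X : Type} [TopologicalSpace X] [ChartedSpace C2 X] [IsManifold 𝓘(ℂ, C2) ω X]
variable {h : X → Matrix (Fin 2) (Fin 2) ℂ}

/-! ### continuity of the norm -/

theorem continuous_of_charts' {f : X → ℝ}
    (hf : ∀ e ∈ atlas C2 X, ContinuousOn (fun z => f (e.symm z)) e.target) : Continuous f := by
  have h1 : Continuous fun x => (f x : ℂ) := continuous_of_charts fun e he =>
    Complex.continuous_ofReal.comp_continuousOn (hf e he)
  have h2 := Complex.continuous_re.comp h1
  exact h2

theorem continuous_n0 (hh : IsHerm h) {V : Type*} [NormedAddCommGroup V] [InnerProductSpace ℂ V]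
    {κ : ℤ} {n : WithTop ℕ∞} {u : X → V} (hu : Reg0 n κ u) : Continuous (n0 h κ u) := by
  refine continuous_of_charts' fun e he => ?_
  have h1 : ContinuousOn (fun z => ‖loc0 κ e u z‖ * dhl h e z ^ (-(κ : ℝ) / 2)) e.target :=
    ((hu e he).continuousOn.norm).mul ((dhl_smooth hh he).continuousOn.rpow_const
      fun z hz => Or.inl (dhl_pos hh he hz).ne')
  refine h1.congr fun z hz => ?_
  have hJ : 0 < ‖(jac e (e.symm z)).det‖ := norm_pos_iff.2 (jac_det_ne_zero he (e.map_target hz))
  have hd : 0 < dh h (e.symm z) := (det_pos hh _).1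
  have h2 : dhl h e z = ‖(jac e (e.symm z)).det‖ ^ 2 * dh h (e.symm z) := dhl_eq hh e z
  change n0 h κ u (e.symm z) = ‖loc0 κ e u z‖ * dhl h e z ^ (-(κ : ℝ) / 2)
  rw [h2, loc0, norm_smul, norm_zpow, Real.mul_rpow (by positivity) hd.le, n0]
  have h3 : (‖(jac e (e.symm z)).det‖ ^ 2) ^ (-(κ : ℝ) / 2) = (‖(jac e (e.symm z)).det‖ ^ κ)⁻¹ := by
    rw [← Real.rpow_natCast, ← Real.rpow_mul hJ.le, ← Real.rpow_intCast, ← Real.rpow_neg hJ.le]
    congr 1
    push_cast
    ring
  rw [h3]
  have h4 : ‖(jac e (e.symm z)).det‖ ^ κ ≠ 0 := (zpow_pos hJ κ).ne'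
  field_simp

/-! ### continuity and invariance of `ric` -/

theorem continuous_ric (hh : IsHerm h) : Continuous (ric h) := by
  have h1 : Continuous fun x => (((h x)⁻¹ * lv (fun y => ((Real.log (dhl h (chartAt C2 x) y) : ℝ)
      : ℂ)) (chartAt C2 x x)).trace) := by
    refine continuous_of_charts fun e he => ?_
    refine (continuousOn_trace he hh (B := fun z => lv (fun y => ((Real.log (dhl h e y) : ℝ) : ℂ)) z)
      fun i j => ?_).congr fun z hz => (ric_chart hh he hz).symm
    have h2 : ContDiffOn ℝ ∞ (fun y => ((Real.log (dhl h e y) : ℝ) : ℂ)) e.target :=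
      Complex.ofRealCLM.contDiff.comp_contDiffOn (logdhl_smooth hh he)
    have h3 : ContDiffOn ℝ ∞ (dzb j fun y => ((Real.log (dhl h e y) : ℝ) : ℂ)) e.target :=
      contDiffOn_dzb e.open_target h2 (by simp) j
    exact (contDiffOn_dz e.open_target h3 (m := ∞) (by simp) i).continuousOn
  exact Complex.continuous_re.comp h1

theorem ric_comp {Y : Type} [TopologicalSpace Y] [ChartedSpace C2 Y] {g : Y → X}
    (hg : ChartMap g) (y : Y) : ric (fun z => h (g z)) y = ric h (g y) := by
  unfold ric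
  rw [hg.apply_eq]
  have h1 : (fun z => ((Real.log (dhl h (chartAt C2 (g y)) z) : ℝ) : ℂ)) =ᶠ[𝓝 (chartAt C2 y y)]
      fun z => ((Real.log (dhl (fun z => h (g z)) (chartAt C2 y) z) : ℝ) : ℂ) := by
    filter_upwards [hg.loc11_germ h y] with z hz
    rw [dhl, dhl, hz]
  rw [lv_congr h1]

/-! ### smoothness of the curvature -/

section sm

variable {U : Set C2} {A B : C2 → Matrix ι ι ℂ}

theorem cd_mul (hA : ∀ i j, ContDiffOn ℝ ∞ (fun z => A z i j) U)
    (hB : ∀ i j, ContDiffOn ℝ ∞ (fun z => B z i j) U) (i j : ι) :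
    ContDiffOn ℝ ∞ (fun z => (A z * B z) i j) U := by
  simp only [Matrix.mul_apply]
  exact ContDiffOn.sum fun k _ => (hA i k).mul (hB k j)

theorem cd_sub (hA : ∀ i j, ContDiffOn ℝ ∞ (fun z => A z i j) U)
    (hB : ∀ i j, ContDiffOn ℝ ∞ (fun z => B z i j) U) (i j : ι) :
    ContDiffOn ℝ ∞ (fun z => (A z - B z) i j) U := (hA i j).sub (hB i j)

theorem cd_trace (hA : ∀ i j, ContDiffOn ℝ ∞ (fun z => A z i j) U) :
    ContDiffOn ℝ ∞ (fun z => (A z).trace) U := by
  simp only [Matrix.trace, Matrix.diag_apply]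
  exact ContDiffOn.sum fun k _ => hA k k

end sm

theorem reg11_F11 (L : LB X ι) : Reg11 ∞ L.F11 := by
  intro e he k l
  have hP : ∀ i j, ContDiffOn ℝ ∞ (fun z => L.P (e.symm z) i j) e.target := by
    intro i j
    have := L.smooth i j e he
    rw [LB.loc0_zero] at this
    exact this
  have hX : ∀ k i j, ContDiffOn ℝ ∞ (fun z => DM (dz k) (fun y => L.P (e.symm y)) z i j) e.target :=
    fun k i j => contDiffOn_dz e.open_target (hP i j) (by simp) k
  have hY : ∀ k i j, ContDiffOn ℝ ∞ (fun z => DM (dzb k) (fun y => L.P (e.symm y)) z i j)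
      e.target := fun k i j => contDiffOn_dzb e.open_target (hP i j) (by simp) k
  have h1 : ContDiffOn ℝ ∞ (fun z => (L.P (e.symm z) *
      (DM (dz k) (fun y => L.P (e.symm y)) z * DM (dzb l) (fun y => L.P (e.symm y)) z -
        DM (dzb l) (fun y => L.P (e.symm y)) z * DM (dz k) (fun y => L.P (e.symm y)) z)).trace)
      e.target :=
    cd_trace (cd_mul hP (cd_sub (cd_mul (hX k) (hY l)) (cd_mul (hY l) (hX k))))
  refine h1.congr fun z hz => ?_
  have h2 : ∀ k, DM (dz k) (fun y => L.P (e.symm y)) z = ∑ p, jac e (e.symm z) p k •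
      Matrix.of fun i j => del0 (fun y => L.P y i j) (e.symm z) p := by
    intro k
    ext i j
    have := H469.del0_law (H469.r0mono (L.smooth i j) H469.one_le_infty) he hz k
    simp only [loc10] at this
    rw [Matrix.sum_apply]
    exact this.symm
  have h3 : ∀ l, DM (dzb l) (fun y => L.P (e.symm y)) z = ∑ q, conj (jac e (e.symm z) q l) •
      Matrix.of fun i j => dbar0 0 (fun y => L.P y i j) (e.symm z) q := by
    intro l
    ext i j
    have := loc1_dbar0 he hz (((L.smooth i j).contDiffAt he hz).differentiableAt (by simp)) l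
    rw [LB.loc0_zero] at this
    simp only [loc1, zpow_zero, one_smul] at this
    rw [Matrix.sum_apply]
    exact this.symm
  simp only [loc11, Matrix.of_apply, LB.F11]
  rw [h2, h3]
  simp only [Fin.sum_univ_two, Matrix.mul_add, Matrix.add_mul, Matrix.mul_sub, Matrix.trace_add,
    Matrix.trace_sub, Matrix.smul_mul, Matrix.mul_smul, Matrix.trace_smul, smul_eq_mul]
  ring

theorem loc11_add' {g g' : X → Matrix (Fin 2) (Fin 2) ℂ} (e : Ch X) (z : C2) (i j : Fin 2) :
    loc11 e (fun x => g x + g' x) z i j = loc11 e g z i j + loc11 e g' z i j := by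
  simp only [loc11, Matrix.of_apply, Matrix.add_apply, smul_add, Finset.sum_add_distrib]

theorem reg11_add {n : WithTop ℕ∞} {g g' : X → Matrix (Fin 2) (Fin 2) ℂ} (hg : Reg11 n g)
    (hg' : Reg11 n g') : Reg11 n fun x => g x + g' x := by
  intro e he i j
  simp only [loc11_add']
  exact (hg e he i j).add (hg' e he i j)

theorem reg10_conj {a : X → Fin 2 → ℂ} (ha : Reg1 ∞ 0 a) : Reg10 ∞ fun y i => -conj (a y i) := by
  intro e he
  have e1 : loc10 e (fun y i => -conj (a y i)) = fun z i => -conj (loc1 0 e a z i) := by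
    funext z i
    simp only [loc10, loc1, zpow_zero, smul_eq_mul, map_sum, map_mul,
        Complex.conj_conj, mul_neg, Finset.sum_neg_distrib, one_mul]
  rw [e1]
  rw [contDiffOn_pi]
  intro i
  exact (Complex.conjCLE.contDiff.comp_contDiffOn ((contDiffOn_pi.1 (ha e he)) i)).neg

theorem reg11_chern (L : LB X ι) {a : X → Fin 2 → ℂ} (ha : Reg1 ∞ 0 a) :
    Reg11 ∞ (L.chern a).f11 :=
  reg11_add (reg11_F11 L) (reg11_add (H469.reg_del1 ha) (H469.reg_dbar10 (reg10_conj ha)))

theorem continuous_chern (hh : IsHerm h) (L : LB X ι) {a : X → Fin 2 → ℂ} (ha : Reg1 ∞ 0 a) :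
    Continuous fun x => (trh h (L.chern a).f11 x).re :=
  Complex.continuous_re.comp (continuous_trh hh (reg11_chern L ha))

/-! ### the gradient -/

/-- the `(1,1)`-form `∂f ∧ ∂̄f` -/
def gradM (f : X → ℂ) (x : X) : Matrix (Fin 2) (Fin 2) ℂ :=
  Matrix.of fun i j => del0 f x i * dbar0 0 f x j

/-- `|∂f|²` -/
def grad2 (h : X → Matrix (Fin 2) (Fin 2) ℂ) (f : X → ℝ) (x : X) : ℝ :=
  (trh h (gradM fun y => (f y : ℂ)) x).re

theorem reg11_gradM {f : X → ℂ} (hf : Reg0 ∞ 0 f) : Reg11 ∞ (gradM f) := by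
  intro e he i j
  have h0 : ContDiffOn ℝ ∞ (fun z => f (e.symm z)) e.target := by
    have := hf e he
    rw [LB.loc0_zero] at this
    exact this
  have h1 : ContDiffOn ℝ ∞ (fun z => dz i (fun v => f (e.symm v)) z *
      dzb j (fun v => f (e.symm v)) z) e.target :=
    (contDiffOn_dz e.open_target h0 (by simp) i).mul (contDiffOn_dzb e.open_target h0 (by simp) j)
  refine h1.congr fun z hz => ?_
  have e1 := H469.del0_law (H469.r0mono hf H469.one_le_infty) he hz i
  have e2 := loc1_dbar0 he hz ((hf.contDiffAt he hz).differentiableAt (by simp)) j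
  rw [LB.loc0_zero] at e2
  have e3 : (f ∘ e.symm) = fun v => f (e.symm v) := rfl
  rw [e3] at e2
  rw [← e1, ← e2]
  simp only [loc11, loc10, loc1, gradM, Matrix.of_apply, Fin.sum_univ_two, zpow_zero,
    smul_eq_mul]
  ring

theorem continuous_grad2 (hh : IsHerm h) {f : X → ℝ} (hf : Reg0 ∞ 0 fun x => (f x : ℂ)) :
    Continuous (grad2 h f) :=
  Complex.continuous_re.comp (continuous_trh hh (reg11_gradM hf))

end Vale.Agent.P267.H334
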