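import Vale.Agent.P267.H334.Cont

/-!
# P267, package XA-MAX (helper334), part 7: vanishing theorems on the infinite cyclic covering
-/

set_option linter.unusedVariables false
set_option linter.unusedSectionVars false

open scoped Manifold ContDiff ComplexConjugate Matrix ComplexOrder
open MeasureTheory Set Filter Topology

noncomputable section

namespace Vale.Agent.P267.H334

open FL XT

/-! ### chain rule -/

theorem dzb_rcomp {φ : C2 → ℝ} {g : ℝ → ℝ} {z : C2} (hφ : DifferentiableAt ℝ φ z)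
    (hg : DifferentiableAt ℝ g (φ z)) (j : Fin 2) :
    dzb j (fun y => ((g (φ y) : ℝ) : ℂ)) z =
      ((deriv g (φ z) : ℝ) : ℂ) * dzb j (fun y => (φ y : ℂ)) z := by
  have h0 : HasFDerivAt (fun y => g (φ y)) (deriv g (φ z) • fderiv ℝ φ z) z :=
    hg.hasDerivAt.comp_hasFDerivAt z hφ.hasFDerivAt
  have h1 : ∀ v, fderiv ℝ (fun y => ((g (φ y) : ℝ) : ℂ)) z v =
      ((deriv g (φ z) : ℝ) : ℂ) * fderiv ℝ (fun y => (φ y : ℂ)) z v := by
    intro v
    rw [fderiv_ofReal (φ := fun y => g (φ y)) h0.differentiableAt, fderiv_ofReal hφ, h0.fderiv]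
    simp
  unfold dzb
  rw [h1, h1]
  simp only [smul_eq_mul]
  ring

theorem dz_rcomp {φ : C2 → ℝ} {g : ℝ → ℝ} {z : C2} (hφ : DifferentiableAt ℝ φ z)
    (hg : DifferentiableAt ℝ g (φ z)) (j : Fin 2) :
    dz j (fun y => ((g (φ y) : ℝ) : ℂ)) z =
      ((deriv g (φ z) : ℝ) : ℂ) * dz j (fun y => (φ y : ℂ)) z := by
  have h0 : HasFDerivAt (fun y => g (φ y)) (deriv g (φ z) • fderiv ℝ φ z) z :=
    hg.hasDerivAt.comp_hasFDerivAt z hφ.hasFDerivAt
  have h1 : ∀ v, fderiv ℝ (fun y => ((g (φ y) : ℝ) : ℂ)) z v =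
      ((deriv g (φ z) : ℝ) : ℂ) * fderiv ℝ (fun y => (φ y : ℂ)) z v := by
    intro v
    rw [fderiv_ofReal (φ := fun y => g (φ y)) h0.differentiableAt, fderiv_ofReal hφ, h0.fderiv]
    simp
  unfold dz
  rw [h1, h1]
  simp only [smul_eq_mul]
  ring

theorem lv_rcomp {φ : C2 → ℝ} {g : ℝ → ℝ} {z : C2} (hφ : ContDiffAt ℝ 2 φ z)
    (hg : ContDiff ℝ ∞ g) (i j : Fin 2) :
    lv (fun y => ((g (φ y) : ℝ) : ℂ)) z i j =
      ((deriv g (φ z) : ℝ) : ℂ) * lv (fun y => (φ y : ℂ)) z i j +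
      ((deriv (deriv g) (φ z) : ℝ) : ℂ) *
        (dz i (fun y => (φ y : ℂ)) z * dzb j (fun y => (φ y : ℂ)) z) := by
  have hg' : ContDiff ℝ ∞ (deriv g) := (contDiff_infty_iff_deriv.1 hg).2
  have hd : ∀ᶠ y in 𝓝 z, DifferentiableAt ℝ φ y :=
    (hφ.eventually (by simp)).mono fun y hy => hy.differentiableAt (by norm_num)
  have h1 : dzb j (fun y => ((g (φ y) : ℝ) : ℂ)) =ᶠ[𝓝 z]
      fun y => ((deriv g (φ y) : ℝ) : ℂ) * dzb j (fun y => (φ y : ℂ)) y := by
    filter_upwards [hd] with y hy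
    exact dzb_rcomp hy (hg.differentiable (by simp) _) j
  have hd1 : DifferentiableAt ℝ (fun y => ((deriv g (φ y) : ℝ) : ℂ)) z := by
    have : DifferentiableAt ℝ (fun y => deriv g (φ y)) z :=
      (hg'.differentiable (by simp) _).comp z hd.self_of_nhds
    exact Complex.ofRealCLM.differentiableAt.comp z this
  rw [lv_apply, dz_congr h1, dz_mul hd1 (dzb_diff (contDiffAt_ofReal hφ) j),
    dz_rcomp hd.self_of_nhds (hg'.differentiable (by simp) _), lv_apply]
  ring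

section man

variable {X : Type} [TopologicalSpace X] [ChartedSpace C2 X] [IsManifold 𝓘(ℂ, C2) ω X]

theorem reg0_rcomp {f : X → ℝ} (hf : Reg0 ∞ 0 fun x => (f x : ℂ)) {g : ℝ → ℝ}
    (hg : ContDiff ℝ ∞ g) : Reg0 ∞ 0 fun x => ((g (f x) : ℝ) : ℂ) := by
  intro e he
  have h1 := hf e he
  rw [LB.loc0_zero] at h1 ⊢
  have h2 : ContDiffOn ℝ ∞ (fun z => f (e.symm z)) e.target :=
    Complex.reCLM.contDiff.comp_contDiffOn h1
  exact Complex.ofRealCLM.contDiff.comp_contDiffOn (hg.comp_contDiffOn h2)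

theorem ddb_rcomp {f : X → ℝ} (hf : Reg0 ∞ 0 fun x => (f x : ℂ)) {g : ℝ → ℝ}
    (hg : ContDiff ℝ ∞ g) (x : X) :
    ddb (fun y => ((g (f y) : ℝ) : ℂ)) x =
      ((deriv g (f x) : ℝ) : ℂ) • ddb (fun y => (f y : ℂ)) x +
      ((deriv (deriv g) (f x) : ℝ) : ℂ) • gradM (fun y => (f y : ℂ)) x := by
  set e := chartAt C2 x with he
  have hφ : ContDiffAt ℝ 2 (fun z => f (e.symm z)) (e x) := by
    have h1 := (hf.contDiffAt (chart_mem_atlas C2 x) (mem_chart_target C2 x)).of_le two_le_inf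
    rw [LB.loc0_zero] at h1
    exact Complex.reCLM.contDiff.contDiffAt.comp (e x) h1
  ext i j
  rw [ddb_eq (reg0_rcomp hf hg) x, ddb_eq hf x, Matrix.add_apply, Matrix.smul_apply,
    Matrix.smul_apply, lv_rcomp (φ := fun z => f (e.symm z)) hφ hg i j]
  have h2 : e.symm (e x) = x := e.left_inv (mem_chart_source C2 x)
  have h3 : dbar0 0 (fun y => (f y : ℂ)) x j = dzb j (fun y => (f (e.symm y) : ℂ)) (e x) := by
    rw [dbar0, LB.loc0_zero]
    rfl
  simp only [h2, smul_eq_mul, gradM, Matrix.of_apply, h3]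
  rfl

theorem trh_ddb_rcomp {h : X → Matrix (Fin 2) (Fin 2) ℂ} {f : X → ℝ}
    (hf : Reg0 ∞ 0 fun x => (f x : ℂ)) {g : ℝ → ℝ} (hg : ContDiff ℝ ∞ g) (x : X) :
    (trh h (ddb fun y => ((g (f y) : ℝ) : ℂ)) x).re =
      deriv g (f x) * (trh h (ddb fun y => (f y : ℂ)) x).re +
        deriv (deriv g) (f x) * grad2 h f x := by
  rw [trh, ddb_rcomp hf hg x, Matrix.mul_add, Matrix.mul_smul, Matrix.mul_smul, Matrix.trace_add,
    Matrix.trace_smul, Matrix.trace_smul, smul_eq_mul, smul_eq_mul, Complex.add_re,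
    Complex.re_ofReal_mul, Complex.re_ofReal_mul]
  rfl

end man

variable {M : Type} [TopologicalSpace M] [ChartedSpace C2 M] [IsManifold 𝓘(ℂ, C2) ω M]
variable (D : XTData M) {ι : Type} [Fintype ι] [DecidableEq ι]

/-- half the trace of the curvature of `K^{-κ} ⊗ (L, a)` -/
def cv (κ : ℤ) (L : LB M ι) (a : M → Fin 2 → ℂ) (x : M) : ℝ :=
  (1 / 2) * (trh D.h (L.chern a).f11 x).re + ((κ : ℝ) / 2) * ric D.h x

theorem f_cont : Continuous D.f := by
  refine continuous_of_charts' fun e he => ?_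
  have h1 := (D.f_smooth e he).continuousOn
  rw [LB.loc0_zero] at h1
  exact Complex.continuous_re.comp_continuousOn h1

/-- **(VMAX)** -/
theorem vmax {κ : ℤ} {L : LB M ι} {a : M → Fin 2 → ℂ} {u : M → EuclideanSpace ℂ ι}
    (ha : Reg1 ∞ 0 a) (hu : Reg0 ∞ κ u) (hs : L.Sec u) (hol : ∀ x, L.db0 a κ u x = 0)
    {g : ℝ → ℝ} (hg : ContDiff ℝ ∞ g)
    (hc : ∀ x, cv D κ L a x < D.c * deriv g (D.f x) + deriv (deriv g) (D.f x) * grad2 D.h D.f x)
    (hend : ∀ ε > 0, ∃ R : ℝ, ∀ x, R < |D.f x| → n0 D.h κ u x * Real.exp (g (D.f x)) < ε) :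
    ∀ x, u x = 0 := by
  by_contra hne
  push Not at hne
  obtain ⟨x₁, hx₁⟩ := hne
  set v : M → ℝ := fun x => n0 D.h κ u x * Real.exp (g (D.f x)) with hv
  have hvc : Continuous v := (continuous_n0 D.herm hu).mul
    (Real.continuous_exp.comp (hg.continuous.comp (f_cont D)))
  have hv1 : 0 < v x₁ := mul_pos (n0_pos D.herm hx₁) (Real.exp_pos _)
  obtain ⟨R, hR⟩ := hend (v x₁) hv1
  have hx1R : |D.f x₁| ≤ R := by
    by_contra hlt
    exact lt_irrefl _ (hR x₁ (not_le.1 hlt))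
  have hK : IsCompact (D.f ⁻¹' Icc (-R) R) := D.f_proper (-R) R
  have hmem : ∀ x, x ∈ D.f ⁻¹' Icc (-R) R ↔ |D.f x| ≤ R := fun x => by
    rw [mem_preimage, mem_Icc, abs_le]
  obtain ⟨x₀, hx₀, hmax⟩ := hK.exists_isMaxOn ⟨x₁, (hmem x₁).2 hx1R⟩ hvc.continuousOn
  have hge : v x₁ ≤ v x₀ := hmax ((hmem x₁).2 hx1R)
  have hglob : ∀ x, v x ≤ v x₀ := by
    intro x
    by_cases h : |D.f x| ≤ R
    · exact hmax ((hmem x).2 h)
    · exact (hR x (not_le.1 h)).le.trans hge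
  have hu0 : u x₀ ≠ 0 := by
    intro h0
    have : v x₀ = 0 := by simp [hv, n0, h0]
    linarith
  have hloc : IsLocalMax (fun y => n0 D.h κ u y * Real.exp (g (D.f y))) x₀ :=
    Eventually.of_forall hglob
  have key := max_ineq D.herm ha hu hs hol (G := fun x => g (D.f x)) (reg0_rcomp D.f_smooth hg)
    hu0 hloc
  rw [trh_ddb_rcomp D.f_smooth hg, D.lap_f] at key
  have := hc x₀
  rw [cv] at this
  simp only [Complex.ofReal_re] at key
  linarith

/-! ### bounds for invariant functions -/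

theorem bdd_of_inv {F : M → ℝ} (hF : Continuous F) (hinv : ∀ (k : ℤ) x, F (D.sh k x) = F x) :
    ∃ B, ∀ x, F x ≤ B := by
  obtain ⟨B, hB⟩ := ((D.isCompact_slab 0).image hF).bddAbove
  refine ⟨B, fun x => ?_⟩
  have h1 := D.mem_slab_floor x
  have h2 : D.sh (-⌊D.f x⌋) x ∈ D.slab 0 := by
    have := (D.sh_mem_slab (j := ⌊D.f x⌋) (k := -⌊D.f x⌋) (x := x)).2 h1
    simpa using this
  rw [← hinv (-⌊D.f x⌋) x]
  exact hB ⟨_, h2, rfl⟩

theorem grad2_sh (k : ℤ) (x : M) : grad2 D.h D.f (D.sh k x) = grad2 D.h D.f x := by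
  have hg := D.chartMap_sh k
  have h1 : gradM (fun y => (D.f y : ℂ)) (D.sh k x) = gradM (fun y => (D.f y : ℂ)) x := by
    ext i j
    have e1 := hg.del0_comp (fun y => (D.f y : ℂ)) x
    have e2 := hg.dbar0_comp 0 (fun y => (D.f y : ℂ)) x
    simp only [D.f_sh, Complex.ofReal_add] at e1 e2
    have hd : DifferentiableAt ℝ (fun z => ((D.f ((chartAt C2 x).symm z) : ℝ) : ℂ))
        (chartAt C2 x x) := by
      have := (D.f_smooth.contDiffAt (chart_mem_atlas C2 x)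
        (mem_chart_target C2 x)).differentiableAt (by simp)
      rwa [LB.loc0_zero] at this
    have e3 : del0 (fun y => (D.f y : ℂ) + ((k : ℝ) : ℂ)) x i = del0 (fun y => (D.f y : ℂ)) x i := by
      simp only [del0]
      rw [dz_add hd (differentiableAt_const _), dz_const, add_zero]
    have e4 : dbar0 0 (fun y => (D.f y : ℂ) + ((k : ℝ) : ℂ)) x j =
        dbar0 0 (fun y => (D.f y : ℂ)) x j := by
      simp only [dbar0, LB.loc0_zero]
      have := dzb_add hd (differentiableAt_const (((k : ℝ) : ℂ))) j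
      rw [dzb_const, add_zero] at this
      exact this
    simp only [gradM, Matrix.of_apply]
    rw [← e1, ← e2, e3, e4]
  rw [grad2, grad2, trh, trh, h1, D.h_sh]

theorem ric_sh (k : ℤ) (x : M) : ric D.h (D.sh k x) = ric D.h x := by
  have h1 := ric_comp (h := D.h) (D.chartMap_sh k) x
  have h2 : (fun z => D.h (D.sh k z)) = D.h := funext fun z => D.h_sh k z
  rw [h2] at h1
  exact h1.symm

theorem exists_grad2_le : ∃ A, 0 < A ∧ ∀ x, grad2 D.h D.f x ≤ A := by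
  obtain ⟨A, hA⟩ := bdd_of_inv D (continuous_grad2 D.herm D.f_smooth) (grad2_sh D)
  exact ⟨max A 1, lt_of_lt_of_le one_pos (le_max_right _ _), fun x => (hA x).trans (le_max_left _ _)⟩

theorem exists_ric_le : ∃ A, ∀ x, |ric D.h x| ≤ A := by
  obtain ⟨A, hA⟩ := bdd_of_inv D (F := fun x => |ric D.h x|) (continuous_ric D.herm).abs
    fun k x => by rw [ric_sh D k x]
  exact ⟨A, hA⟩

end Vale.Agent.P267.H334
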