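import Vale.Agent.P267.H877.Setup
import Vale.Agent.P267.H334.Bochner

/-!
# P267, package XA-MAX (helper334), part 4: the maximum principle for holomorphic sections
-/

set_option linter.unusedVariables false
set_option linter.unusedSectionVars false

open scoped Manifold ContDiff ComplexConjugate Matrix ComplexOrder
open MeasureTheory Set Filter Topology

noncomputable section

namespace Vale.Agent.P267.H334

open FL XT

variable {ι : Type} [Fintype ι] [DecidableEq ι]
variable {X : Type} [TopologicalSpace X] [ChartedSpace C2 X] [IsManifold 𝓘(ℂ, C2) ω X]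

theorem lv_congr {f g : C2 → ℂ} {z : C2} (h : f =ᶠ[𝓝 z] g) : lv f z = lv g z := by
  ext i j
  refine dz_congr ?_ i
  filter_upwards [h.eventually_nhds] with y hy
  exact dzb_congr hy j

theorem diff_ev {f : C2 → ℂ} {z : C2} (hf : ContDiffAt ℝ 2 f z) :
    ∀ᶠ y in 𝓝 z, DifferentiableAt ℝ f y :=
  (hf.eventually (by simp)).mono fun y hy => hy.differentiableAt (by norm_num)

theorem dzb_diff {f : C2 → ℂ} {z : C2} (hf : ContDiffAt ℝ 2 f z) (j : Fin 2) :
    DifferentiableAt ℝ (dzb j f) z :=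
  (contDiffAt_dzb (m := 1) hf (by norm_num) j).differentiableAt (by norm_num)

theorem lv_comb {f g k : C2 → ℂ} {z : C2} (c d : ℂ) (hf : ContDiffAt ℝ 2 f z)
    (hg : ContDiffAt ℝ 2 g z) (hk : ContDiffAt ℝ 2 k z) :
    lv (fun y => c * f y + d * g y + k y) z = c • lv f z + d • lv g z + lv k z := by
  ext i j
  have h1 : dzb j (fun y => c * f y + d * g y + k y) =ᶠ[𝓝 z]
      fun y => c * dzb j f y + d * dzb j g y + dzb j k y := by
    filter_upwards [diff_ev hf, diff_ev hg, diff_ev hk] with y h1 h2 h3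
    rw [dzb_add ((h1.const_mul c).fun_add (h2.const_mul d)) h3, dzb_add (h1.const_mul c)
      (h2.const_mul d)]
    have e1 := dzb_const_smul c h1 j
    have e2 := dzb_const_smul d h2 j
    simp only [smul_eq_mul] at e1 e2
    rw [e1, e2]
  have e1 := dz_const_smul c (dzb_diff hf j) i
  have e2 := dz_const_smul d (dzb_diff hg j) i
  simp only [smul_eq_mul] at e1 e2
  rw [lv_apply, dz_congr h1, dz_add (((dzb_diff hf j).const_mul c).fun_add
    ((dzb_diff hg j).const_mul d)) (dzb_diff hk j), dz_add ((dzb_diff hf j).const_mul c)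
    ((dzb_diff hg j).const_mul d), e1, e2]
  simp [Matrix.add_apply, Matrix.smul_apply]

theorem ddb_eq {G : X → ℂ} (hG : Reg0 ∞ 0 G) (x : X) :
    ddb G x = lv (fun z => G ((chartAt C2 x).symm z)) (chartAt C2 x x) := by
  ext i j
  simp only [ddb, del1, Matrix.of_apply, lv_apply]
  refine dz_congr ?_ i
  filter_upwards [(chartAt C2 x).open_target.mem_nhds (mem_chart_target C2 x)] with z hz
  rw [loc1_dbar0 (chart_mem_atlas C2 x) hz
    ((hG.contDiffAt (chart_mem_atlas C2 x) hz).differentiableAt (by simp)), LB.loc0_zero]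
  rfl

variable {h : X → Matrix (Fin 2) (Fin 2) ℂ}

/-- `log n0` in a chart -/
theorem log_n0 (hh : IsHerm h) {e : Ch X} (he : e ∈ atlas C2 X) {z : C2} (hz : z ∈ e.target)
    {κ : ℤ} {u : X → EuclideanSpace ℂ ι} (h0 : u (e.symm z) ≠ 0) :
    Real.log (n0 h κ u (e.symm z)) =
      (1 / 2) * Real.log (Loc.nn (fun z => (loc0 κ e u z).ofLp) z) +
        (-(κ : ℝ) / 2) * Real.log (dhl h e z) := by
  have hJ : 0 < ‖(jac e (e.symm z)).det‖ := norm_pos_iff.2 (jac_det_ne_zero he (e.map_target hz))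
  have hu : 0 < ‖u (e.symm z)‖ := norm_pos_iff.2 h0
  have hd : 0 < dh h (e.symm z) := (det_pos hh _).1
  have h1 : Loc.nn (fun z => (loc0 κ e u z).ofLp) z =
      (‖(jac e (e.symm z)).det‖ ^ κ * ‖u (e.symm z)‖) ^ 2 := by
    have e1 : Loc.nn (fun z => (loc0 κ e u z).ofLp) z = ‖loc0 κ e u z‖ ^ 2 := by
      rw [EuclideanSpace.norm_sq_eq]
      rfl
    rw [e1, loc0, norm_smul, norm_zpow]
  have h2 : dhl h e z = ‖(jac e (e.symm z)).det‖ ^ 2 * dh h (e.symm z) := dhl_eq hh e z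
  rw [h1, h2, n0, Real.log_mul hu.ne' (Real.rpow_pos_of_pos hd _).ne', Real.log_rpow hd,
    Real.log_pow, Real.log_mul (zpow_pos hJ κ).ne' hu.ne', Real.log_zpow,
    Real.log_mul (by positivity) hd.ne', Real.log_pow]
  push_cast
  ring

theorem n0_pos (hh : IsHerm h) {κ : ℤ} {u : X → EuclideanSpace ℂ ι} {x : X} (h0 : u x ≠ 0) :
    0 < n0 h κ u x :=
  mul_pos (norm_pos_iff.2 h0) (Real.rpow_pos_of_pos (det_pos hh x).1 _)

theorem n0_nonneg (hh : IsHerm h) {κ : ℤ} {u : X → EuclideanSpace ℂ ι} {x : X} :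
    0 ≤ n0 h κ u x :=
  mul_nonneg (norm_nonneg _) (Real.rpow_pos_of_pos (det_pos hh x).1 _).le

/-- **(MP)** maximum principle -/
theorem max_ineq (hh : IsHerm h) {L : LB X ι} {a : X → Fin 2 → ℂ} {κ : ℤ}
    {u : X → EuclideanSpace ℂ ι} (ha : Reg1 ∞ 0 a) (hu : Reg0 ∞ κ u) (hs : L.Sec u)
    (hol : ∀ x, L.db0 a κ u x = 0) {G : X → ℝ} (hG : Reg0 ∞ 0 fun x => (G x : ℂ)) {x : X}
    (h0 : u x ≠ 0) (hmax : IsLocalMax (fun y => n0 h κ u y * Real.exp (G y)) x) :
    (trh h (ddb fun y => (G y : ℂ)) x).re ≤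
      (1 / 2) * (trh h (L.chern a).f11 x).re + ((κ : ℝ) / 2) * ric h x := by
  set e := chartAt C2 x with he_def
  have he : e ∈ atlas C2 X := chart_mem_atlas C2 x
  have hx : x ∈ e.source := mem_chart_source C2 x
  have hz : e x ∈ e.target := mem_chart_target C2 x
  have hxx : e.symm (e x) = x := e.left_inv hx
  set s : C2 → ι → ℂ := fun z => (loc0 κ e u z).ofLp with hs_def
  set z₀ := e x with hz₀
  have hl := loc_of ha hu hs hol he hz
  -- the three functions
  have hs0 : s z₀ ≠ 0 := by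
    rw [hs_def]
    simp only [hz₀, he_def, loc0_chartAt]
    intro h
    exact h0 (by ext k; exact congrFun h k)
  have hnn : 0 < Loc.nn s z₀ := ip_self_pos hs0
  have hf : ContDiffAt ℝ 2 (fun z => Real.log (Loc.nn s z)) z₀ :=
    (Loc.contDiffAt_nn hl.hs).log hnn.ne'
  have hg : ContDiffAt ℝ 2 (fun z => Real.log (dhl h e z)) z₀ :=
    ((logdhl_smooth hh he).contDiffAt (e.open_target.mem_nhds hz)).of_le two_le_inf
  have hk : ContDiffAt ℝ 2 (fun z => G (e.symm z)) z₀ := by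
    have h1 := (hG.contDiffAt he hz).of_le two_le_inf
    rw [LB.loc0_zero] at h1
    exact Complex.reCLM.contDiff.contDiffAt.comp z₀ h1
  let φ : C2 → ℝ := fun z => (1 / 2) * Real.log (Loc.nn s z) +
    (-(κ : ℝ) / 2) * Real.log (dhl h e z) + G (e.symm z)
  have hφ : ContDiffAt ℝ 2 φ z₀ :=
    ((contDiffAt_const.mul hf).add (contDiffAt_const.mul hg)).add hk
  -- local maximum
  have hcs : ContinuousAt e.symm z₀ := e.continuousAt_symm hz
  have hcu : ∀ᶠ z in 𝓝 z₀, u (e.symm z) ≠ 0 := by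
    filter_upwards [hl.ne_ev hs0] with z hz1 hz2
    apply hz1
    simp only [loc0, hz2, smul_zero]
    rfl
  have hmax' : ∀ᶠ z in 𝓝 z₀, n0 h κ u (e.symm z) * Real.exp (G (e.symm z)) ≤
      n0 h κ u x * Real.exp (G x) := by
    have h1 : Tendsto e.symm (𝓝 z₀) (𝓝 x) := by
      have := hcs.tendsto
      rwa [hxx] at this
    exact h1.eventually hmax
  have hlog : ∀ z ∈ e.target, u (e.symm z) ≠ 0 →
      Real.log (n0 h κ u (e.symm z) * Real.exp (G (e.symm z))) = φ z := by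
    intro z hz1 hz2
    rw [Real.log_mul (n0_pos hh hz2).ne' (Real.exp_pos _).ne', Real.log_exp, log_n0 hh he hz1 hz2]
  have hφm : IsLocalMax φ z₀ := by
    filter_upwards [hcu, hmax', e.open_target.mem_nhds hz] with z h1 h2 h3
    rw [← hlog z h3 h1, ← hlog z₀ hz (by rw [hxx]; exact h0), hxx]
    exact Real.log_le_log (mul_pos (n0_pos hh h1) (Real.exp_pos _)) h2
  -- conclusion
  have key := trace_inv_mul_nonpos (hh.posDef x) (lv_nonpos hφ hφm)
  have hφc : (fun y => (φ y : ℂ)) = fun y => (1 / 2 : ℂ) * ((Real.log (Loc.nn s y) : ℝ) : ℂ) +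
      (-(κ : ℂ) / 2) * ((Real.log (dhl h e y) : ℝ) : ℂ) + ((G (e.symm y) : ℝ) : ℂ) := by
    funext y
    simp only [φ]
    push_cast
    ring
  rw [hφc, lv_comb _ _ (contDiffAt_ofReal hf) (contDiffAt_ofReal hg) (contDiffAt_ofReal hk),
    lv_log_section ha hu hs hol x h0, ← ddb_eq hG x] at key
  simp only [Matrix.mul_add, Matrix.mul_smul, Matrix.trace_add, Matrix.trace_smul, smul_eq_mul,
    Matrix.mul_neg, Matrix.trace_neg, Complex.add_re] at key
  have e1 : ((1 / 2 : ℂ) * -((h x)⁻¹ * (L.chern a).f11 x).trace).re =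
      -(1 / 2) * (trh h (L.chern a).f11 x).re := by
    rw [trh, mul_neg, Complex.neg_re]
    have : (1 / 2 : ℂ) = ((1 / 2 : ℝ) : ℂ) := by push_cast; rfl
    rw [this, Complex.re_ofReal_mul]
    ring
  have e2 : ((-(κ : ℂ) / 2) * ((h x)⁻¹ * lv (fun y => ((Real.log (dhl h e y) : ℝ) : ℂ)) z₀).trace).re
      = (-(κ : ℝ) / 2) * ric h x := by
    have : (-(κ : ℂ) / 2) = ((-(κ : ℝ) / 2 : ℝ) : ℂ) := by push_cast; rfl
    rw [this, Complex.re_ofReal_mul]
    rfl
  rw [e1, e2] at key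
  have e3 : ((h x)⁻¹ * ddb (fun y => (G y : ℂ)) x).trace = trh h (ddb fun y => (G y : ℂ)) x := rfl
  rw [e3] at key
  linarith

end Vale.Agent.P267.H334
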