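import Vale.Agent.P267.H334.Max

/-!
# P267, package XA-MAX (helper334), part 5: change of charts for `∂∂̄`, continuity of traces
-/

set_option linter.unusedVariables false
set_option linter.unusedSectionVars false

open scoped Manifold ContDiff ComplexConjugate Matrix ComplexOrder
open MeasureTheory Set Filter Topology

noncomputable section

namespace Vale.Agent.P267.H334

open FL XT

/-- `∂∂̄` and holomorphic changes of coordinates -/
theorem lv_comp {F : C2 → ℂ} {τ : C2 → C2} {z : C2} (hF : ContDiffAt ℝ 2 F (τ z))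
    (hτ : AnalyticAt ℂ τ z) (i j : Fin 2) :
    lv (fun y => F (τ y)) z i j = ∑ p, ∑ q, dz i (fun y => τ y p) z *
      conj (dz j (fun y => τ y q) z) * lv F (τ z) p q := by
  have hτc : ContinuousAt τ z := hτ.continuousAt
  have h1 : dzb j (fun y => F (τ y)) =ᶠ[𝓝 z]
      fun y => ∑ q, conj (dz j (fun y => τ y q) y) • dzb q F (τ y) := by
    filter_upwards [hτ.eventually_analyticAt, hτc.eventually (diff_ev hF)] with y hy1 hy2
    exact dzb_comp hy2 hy1.differentiableAt j
  have h2 : ∀ q, AnalyticAt ℂ (dz j (fun y => τ y q)) z := fun q =>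
    hol_dz (comp_analyticAt hτ q) j
  have h3 : ∀ q, DifferentiableAt ℝ (fun y => conj (dz j (fun y => τ y q) y)) z := fun q =>
    differentiableAt_conj ((h2 q).differentiableAt.restrictScalars ℝ)
  have h4 : ∀ q, DifferentiableAt ℝ (fun y => dzb q F (τ y)) z := fun q =>
    (dzb_diff hF q).comp z (hτ.differentiableAt.restrictScalars ℝ)
  rw [lv_apply, dz_congr h1, dz_sum _ fun q _ => (h3 q).fun_smul (h4 q)]
  rw [Finset.sum_comm]
  refine Finset.sum_congr rfl fun q _ => ?_
  rw [dz_smul (h3 q) (h4 q), dz_conj ((h2 q).differentiableAt.restrictScalars ℝ),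
    dzb_of_hol (h2 q).differentiableAt, dz_comp (dzb_diff hF q) hτ.differentiableAt]
  simp only [map_zero, smul_eq_mul, lv_apply, Fin.sum_univ_two]
  ring

/-- `log |J|²` is pluriharmonic -/
theorem lv_log_hol {J : C2 → ℂ} {z : C2} (hJ : AnalyticAt ℂ J z) (h0 : J z ≠ 0) :
    lv (fun y => ((Real.log (‖J y‖ ^ 2) : ℝ) : ℂ)) z = 0 := by
  ext i j
  have h1 : dzb j (fun y => ((Real.log (‖J y‖ ^ 2) : ℝ) : ℂ)) =ᶠ[𝓝 z]
      fun y => conj (dz j J y * (J y)⁻¹) := by
    filter_upwards [hJ.eventually_analyticAt, hJ.continuousAt.eventually_ne h0] with y hy1 hy2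
    have hn : (‖J y‖ ^ 2 : ℝ) ≠ 0 := by
      have := norm_pos_iff.2 hy2
      positivity
    have hd : DifferentiableAt ℝ (fun y => ‖J y‖ ^ 2) y :=
      (hy1.differentiableAt.restrictScalars ℝ).norm_sq ℂ
    rw [Loc.dzb_log hd hn]
    have e : (fun y => ((‖J y‖ ^ 2 : ℝ) : ℂ)) = fun y => J y * conj (J y) := by
      funext y
      rw [Complex.mul_conj']
      push_cast
      rfl
    have hdJ : DifferentiableAt ℝ J y := hy1.differentiableAt.restrictScalars ℝ
    rw [e, dzb_mul hdJ (differentiableAt_conj hdJ), dzb_conj hdJ, dzb_of_hol hy1.differentiableAt]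
    have e2 : ((‖J y‖ ^ 2 : ℝ) : ℂ) = J y * conj (J y) := congrFun e y
    rw [e2]
    have hc : conj (J y) ≠ 0 := by simpa using hy2
    simp only [map_mul, map_inv₀, zero_mul, add_zero]
    field_simp
  have h2 : AnalyticAt ℂ (fun y => dz j J y * (J y)⁻¹) z :=
    (hol_dz hJ j).mul (hJ.inv h0)
  rw [lv_apply, dz_congr h1, dz_conj (h2.differentiableAt.restrictScalars ℝ),
    dzb_of_hol h2.differentiableAt]
  simp

variable {X : Type} [TopologicalSpace X] [ChartedSpace C2 X] [IsManifold 𝓘(ℂ, C2) ω X]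
variable {h : X → Matrix (Fin 2) (Fin 2) ℂ}

theorem trace_change {A H G : Matrix (Fin 2) (Fin 2) ℂ} (hA : A.det ≠ 0) :
    ((Aᵀ * H * A.map conj)⁻¹ * (Aᵀ * G * A.map conj)).trace = (H⁻¹ * G).trace := by
  have h1 : IsUnit Aᵀ.det := by rw [Matrix.det_transpose]; exact isUnit_iff_ne_zero.2 hA
  have h2 : IsUnit (A.map conj).det := by
    have : (A.map conj).det = conj A.det := (RingHom.map_det (starRingEnd ℂ) _).symm
    rw [this]
    exact isUnit_iff_ne_zero.2 (by simpa using hA)
  rw [Matrix.mul_inv_rev, Matrix.mul_inv_rev]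
  have e : (A.map conj)⁻¹ * (H⁻¹ * Aᵀ⁻¹) * (Aᵀ * G * A.map conj) =
      (A.map conj)⁻¹ * (H⁻¹ * G * A.map conj) := by
    simp only [Matrix.mul_assoc]
    congr 2
    rw [← Matrix.mul_assoc, Matrix.nonsing_inv_mul _ h1, Matrix.one_mul]
  rw [e, Matrix.trace_mul_comm, Matrix.mul_assoc, Matrix.mul_nonsing_inv _ h2, Matrix.mul_one]

/-- the trace may be computed in every chart -/
theorem trh_chart {g : X → Matrix (Fin 2) (Fin 2) ℂ} {e : Ch X} (he : e ∈ atlas C2 X) {z : C2}
    (hz : z ∈ e.target) :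
    trh h g (e.symm z) = ((loc11 e h z)⁻¹ * loc11 e g z).trace := by
  rw [loc11_eq, loc11_eq, trace_change (jac_det_ne_zero he (e.map_target hz))]
  rfl

theorem inv_fin2 (A : Matrix (Fin 2) (Fin 2) ℂ) (B : Matrix (Fin 2) (Fin 2) ℂ) :
    (A⁻¹ * B).trace = (A.det)⁻¹ * (A 1 1 * B 0 0 - A 0 1 * B 1 0 - A 1 0 * B 0 1 + A 0 0 * B 1 1)
    := by
  rw [Matrix.inv_def, Matrix.adjugate_fin_two, Ring.inverse_eq_inv', Matrix.smul_mul,
    Matrix.trace_smul, smul_eq_mul, Matrix.trace_fin_two, Matrix.mul_apply, Matrix.mul_apply]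
  congr 1
  simp [Fin.sum_univ_two]
  ring

theorem det_loc_ne (hh : IsHerm h) {e : Ch X} (he : e ∈ atlas C2 X) {z : C2} (hz : z ∈ e.target) :
    (loc11 e h z).det ≠ 0 := by
  intro h0
  have := dhl_pos hh he hz
  rw [dhl, h0] at this
  simp at this

/-- in a chart, a trace with continuous coefficients is continuous -/
theorem continuousOn_trace {e : Ch X} (he : e ∈ atlas C2 X) (hh : IsHerm h)
    {B : C2 → Matrix (Fin 2) (Fin 2) ℂ} (hB : ∀ i j, ContinuousOn (fun z => B z i j) e.target) :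
    ContinuousOn (fun z => ((loc11 e h z)⁻¹ * B z).trace) e.target := by
  have hA := fun i j => (hh.smooth e he i j).continuousOn
  simp only [inv_fin2, Matrix.det_fin_two]
  refine ContinuousOn.mul (ContinuousOn.inv₀ (((hA 0 0).mul (hA 1 1)).sub ((hA 0 1).mul (hA 1 0)))
    fun z hz => ?_) ?_
  · have := det_loc_ne hh he hz
    rwa [Matrix.det_fin_two] at this
  · exact ((((hA 1 1).mul (hB 0 0)).sub ((hA 0 1).mul (hB 1 0))).sub
      ((hA 1 0).mul (hB 0 1))).add ((hA 0 0).mul (hB 1 1))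

theorem continuous_of_charts {f : X → ℂ}
    (hf : ∀ e ∈ atlas C2 X, ContinuousOn (fun z => f (e.symm z)) e.target) : Continuous f := by
  rw [continuous_iff_continuousAt]
  intro x
  have h1 := hf _ (chart_mem_atlas C2 x)
  have h2 : ContinuousAt (fun z => f ((chartAt C2 x).symm z)) (chartAt C2 x x) :=
    h1.continuousAt ((chartAt C2 x).open_target.mem_nhds (mem_chart_target C2 x))
  have h3 : ContinuousAt (chartAt C2 x) x := (chartAt C2 x).continuousAt (mem_chart_source C2 x)
  have h4 := ContinuousAt.comp (f := chartAt C2 x) (g := fun z => f ((chartAt C2 x).symm z)) h2 h3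
  refine h4.congr ?_
  filter_upwards [(chartAt C2 x).open_source.mem_nhds (mem_chart_source C2 x)] with y hy
  simp only [Function.comp_apply, (chartAt C2 x).left_inv hy]

/-- traces of continuous `(1,1)`-forms are continuous -/
theorem continuous_trh (hh : IsHerm h) {g : X → Matrix (Fin 2) (Fin 2) ℂ}
    {n : WithTop ℕ∞} (hg : Reg11 n g) : Continuous (trh h g) := by
  refine continuous_of_charts fun e he => ?_
  refine (continuousOn_trace he hh fun i j => (hg e he i j).continuousOn).congr fun z hz => ?_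
  exact trh_chart he hz

/-- `ric` in an arbitrary chart -/
theorem ric_chart (hh : IsHerm h) {e : Ch X} (he : e ∈ atlas C2 X) {z : C2} (hz : z ∈ e.target) :
    ((loc11 e h z)⁻¹ * lv (fun y => ((Real.log (dhl h e y) : ℝ) : ℂ)) z).trace =
      ((h (e.symm z))⁻¹ * lv (fun y => ((Real.log (dhl h (chartAt C2 (e.symm z)) y) : ℝ) : ℂ))
        (chartAt C2 (e.symm z) (e.symm z))).trace := by
  obtain ⟨x, hx, rfl⟩ : ∃ x ∈ e.source, e x = z := ⟨e.symm z, e.map_target hz, e.right_inv hz⟩
  rw [e.left_inv hx]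
  set e' := chartAt C2 x with he'd
  have he' : e' ∈ atlas C2 X := chart_mem_atlas C2 x
  have hx' : x ∈ e'.source := mem_chart_source C2 x
  set τ : C2 → C2 := fun w => e' (e.symm w) with hτd
  have hτ : AnalyticAt ℂ τ (e x) := trans_analyticAt he he' hx hx'
  have hτx : τ (e x) = e' x := by rw [hτd]; simp only [e.left_inv hx]
  set J : C2 → ℂ := fun w => (jacM e e' (e.symm w)).det with hJd
  have hJ : AnalyticAt ℂ J (e x) := det_analyticAt he he' hx hx'
  have hJ0 : J (e x) ≠ 0 := by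
    rw [hJd]
    simp only [e.left_inv hx]
    exact jacM_det_ne_zero he he' hx hx'
  -- relation of the two local determinants
  have h1 : (fun y => ((Real.log (dhl h e y) : ℝ) : ℂ)) =ᶠ[𝓝 (e x)] fun y =>
      1 * ((Real.log (‖J y‖ ^ 2) : ℝ) : ℂ) + 0 * 0 +
        (fun y => ((Real.log (dhl h e' y) : ℝ) : ℂ)) (τ y) := by
    filter_upwards [(isOpen_trans e e').mem_nhds (mem_trans hx hx')] with w hw
    have hw1 : w ∈ e.target := hw.1
    have hw2 : e.symm w ∈ e'.source := hw.2
    have hw3 : e'.symm (τ w) = e.symm w := e'.left_inv hw2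
    have hw4 : τ w ∈ e'.target := e'.map_source hw2
    have e1 : jac e (e.symm w) = jac e' (e.symm w) * jacM e e' (e.symm w) :=
      jac_eq he he' (e.map_target hw1) hw2
    have hJw : J w ≠ 0 := jacM_det_ne_zero he he' (e.map_target hw1) hw2
    have e2 : dhl h e w = ‖J w‖ ^ 2 * dhl h e' (τ w) := by
      rw [dhl_eq hh, dhl_eq hh, hw3, e1, Matrix.det_mul, norm_mul]
      simp only [hJd]
      ring
    have hp : 0 < ‖J w‖ := norm_pos_iff.2 hJw
    rw [e2, Real.log_mul (by positivity) (dhl_pos hh he' hw4).ne']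
    push_cast
    ring
  have hF : ContDiffAt ℝ 2 (fun y => ((Real.log (dhl h e' y) : ℝ) : ℂ)) (e' x) :=
    contDiffAt_ofReal (((logdhl_smooth hh he').contDiffAt
      (e'.open_target.mem_nhds (mem_chart_target C2 x))).of_le two_le_inf)
  have hF' : ContDiffAt ℝ 2 (fun y => ((Real.log (dhl h e' y) : ℝ) : ℂ)) (τ (e x)) := by
    rw [hτx]; exact hF
  have hJ2 : ContDiffAt ℝ 2 (fun y => ((Real.log (‖J y‖ ^ 2) : ℝ) : ℂ)) (e x) := by
    have h2 : ContDiffAt ℝ 2 J (e x) := (hJ.contDiffAt (n := 2)).restrict_scalars ℝ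
    have h3 : ‖J (e x)‖ ^ 2 ≠ 0 := by
      have := norm_pos_iff.2 hJ0
      positivity
    exact contDiffAt_ofReal ((h2.norm_sq ℂ).log h3)
  have hcomp : ContDiffAt ℝ 2 (fun y => (fun y => ((Real.log (dhl h e' y) : ℝ) : ℂ)) (τ y))
      (e x) :=
    ContDiffAt.comp (e x) hF' ((hτ.contDiffAt (n := 2)).restrict_scalars ℝ)
  have h2 : lv (fun y => ((Real.log (dhl h e y) : ℝ) : ℂ)) (e x) =
      (jacM e e' x)ᵀ * lv (fun y => ((Real.log (dhl h e' y) : ℝ) : ℂ)) (e' x) *
        (jacM e e' x).map conj := by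
    rw [lv_congr h1, lv_comb 1 0 hJ2 contDiffAt_const hcomp, lv_log_hol hJ hJ0]
    simp only [smul_zero, zero_smul, zero_add]
    ext i j
    rw [lv_comp hF' hτ i j, hτx]
    simp only [Matrix.mul_apply, Matrix.transpose_apply, Matrix.map_apply, Fin.sum_univ_two,
      jacM, Matrix.of_apply, hτd]
    ring
  have h3 : jac e x = jacM e e' x := by
    rw [jac_eq he he' hx hx', he'd, jac_chartAt, Matrix.one_mul]
  rw [loc11_eq, e.left_inv hx, h3, h2, trace_change (jacM_det_ne_zero he he' hx hx')]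

end Vale.Agent.P267.H334
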