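import Vale.Agent.P267.H399.Wirt

/-!
# P267, package XA-MAX (helper334), part 1: second derivative test for `∂∂̄`
-/

set_option linter.unusedVariables false
set_option linter.unusedSectionVars false

open scoped Manifold ContDiff ComplexConjugate Matrix ComplexOrder
open MeasureTheory Set Filter Topology

noncomputable section

namespace Vale.Agent.P267.H334

open FL

variable {V : Type*} [NormedAddCommGroup V] [NormedSpace ℂ V]

/-- the coefficient matrix of `∂∂̄ f` in coordinates: `(∂_i ∂̄_j f)_{ij}` -/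
def lv (f : C2 → V) (z : C2) : Matrix (Fin 2) (Fin 2) V := Matrix.of fun i j => dz i (dzb j f) z

@[simp] theorem lv_apply (f : C2 → V) (z : C2) (i j : Fin 2) : lv f z i j = dz i (dzb j f) z := rfl

theorem hasFDerivAt_fderiv {f : C2 → V} {z : C2} (hf : ContDiffAt ℝ 2 f z) :
    HasFDerivAt (fderiv ℝ f) (fderiv ℝ (fderiv ℝ f) z) z :=
  ((hf.fderiv_right (m := 1) (by norm_num)).differentiableAt (by norm_num)).hasFDerivAt

/-- the full second derivative in terms of Wirtinger derivatives -/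
theorem second_eq {f : C2 → V} {z : C2} (hf : ContDiffAt ℝ 2 f z) (u v : C2) :
    fderiv ℝ (fderiv ℝ f) z u v = ∑ j, (v j • ∑ i, (u i • dz i (dz j f) z +
      conj (u i) • dzb i (dz j f) z) + conj (v j) • ∑ i, (u i • dz i (dzb j f) z +
      conj (u i) • dzb i (dzb j f) z)) := by
  have h1 : ∀ j, DifferentiableAt ℝ (dz j f) z := fun j =>
    (contDiffAt_dz (m := 1) hf (by norm_num) j).differentiableAt (by norm_num)
  have h2 : ∀ j, DifferentiableAt ℝ (dzb j f) z := fun j =>
    (contDiffAt_dzb (m := 1) hf (by norm_num) j).differentiableAt (by norm_num)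
  rw [← fderiv_fderiv_apply hf u v]
  have e : (fun y => fderiv ℝ f y v) = fun y => ∑ j, (v j • dz j f y + conj (v j) • dzb j f y) :=
    funext fun y => fderiv_eq_wirt v
  rw [e, fderiv_fun_sum fun j _ => ((h1 j).fun_const_smul _).fun_add ((h2 j).fun_const_smul _)]
  rw [_root_.sum_apply]
  refine Finset.sum_congr rfl fun j _ => ?_
  rw [fderiv_fun_add ((h1 j).fun_const_smul _) ((h2 j).fun_const_smul _),
    fderiv_fun_const_smul (h1 j), fderiv_fun_const_smul (h2 j), add_apply,
    smul_apply, smul_apply, fderiv_eq_wirt, fderiv_eq_wirt]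

/-- the Laplacian along the complex line through `v` is four times the value of `∂∂̄` -/
theorem second_add_second {f : C2 → V} {z : C2} (hf : ContDiffAt ℝ 2 f z) (v : C2) :
    fderiv ℝ (fderiv ℝ f) z v v +
      fderiv ℝ (fderiv ℝ f) z (Complex.I • v) (Complex.I • v) =
      (4 : ℂ) • ∑ i, ∑ j, (v i * conj (v j)) • lv f z i j := by
  rw [second_eq hf, second_eq hf]
  simp only [Fin.sum_univ_two, Pi.smul_apply, smul_eq_mul, map_mul, Complex.conj_I, lv_apply]
  rw [← dz_dzb_comm hf 0 0, ← dz_dzb_comm hf 0 1, ← dz_dzb_comm hf 1 0, ← dz_dzb_comm hf 1 1]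
  match_scalars <;> (ring_nf; simp only [Complex.I_sq]; ring)

/-- second derivative test: at a local maximum the second derivative is `≤ 0` -/
theorem second_nonpos {φ : C2 → ℝ} {z : C2} (hφ : ContDiffAt ℝ 2 φ z) (hm : IsLocalMax φ z)
    (v : C2) : fderiv ℝ (fderiv ℝ φ) z v v ≤ 0 := by
  by_contra hc
  push Not at hc
  -- restrict to the line
  let l : ℝ → C2 := fun t => z + t • v
  have hl0 : l 0 = z := by simp [l]
  have hlc : Continuous l := by fun_prop
  have hl : ∀ t, HasDerivAt l v t := by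
    intro t
    have := ((hasDerivAt_id t).smul_const v).const_add z
    simpa [l] using this
  have hlt : Tendsto l (𝓝 0) (𝓝 z) := by
    have := hlc.tendsto 0
    rwa [hl0] at this
  let g : ℝ → ℝ := fun t => φ (l t)
  have hg1 : ∀ᶠ t in 𝓝 (0 : ℝ), HasDerivAt g (fderiv ℝ φ (l t) v) t := by
    have h1 : ∀ᶠ y in 𝓝 z, DifferentiableAt ℝ φ y := by
      have := hφ.eventually (by simp)
      exact this.mono fun y hy => hy.differentiableAt (by norm_num)
    filter_upwards [hlt.eventually h1] with t ht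
    exact ht.hasFDerivAt.comp_hasDerivAt t (hl t)
  have hg2 : HasDerivAt (deriv g) (fderiv ℝ (fderiv ℝ φ) z v v) 0 := by
    have h1 : HasFDerivAt (fderiv ℝ φ) (fderiv ℝ (fderiv ℝ φ) z) (l 0) := by
      rw [hl0]
      exact ((hφ.fderiv_right (m := 1) (by norm_num)).differentiableAt
        (by norm_num)).hasFDerivAt
    have h2 : HasDerivAt (fun t => fderiv ℝ φ (l t)) (fderiv ℝ (fderiv ℝ φ) z v) 0 :=
      h1.comp_hasDerivAt 0 (hl 0)
    have h3 : HasDerivAt (fun t => fderiv ℝ φ (l t) v) (fderiv ℝ (fderiv ℝ φ) z v v) 0 := by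
      simpa using h2.clm_apply (hasDerivAt_const (0 : ℝ) v)
    refine h3.congr_of_eventuallyEq ?_
    exact hg1.mono fun t ht => ht.deriv
  have hmg : IsLocalMax g 0 := by
    have : ∀ᶠ t in 𝓝 (0 : ℝ), φ (l t) ≤ φ z := hlt.eventually hm
    filter_upwards [this] with t ht
    simpa [g, hl0] using ht
  have hd0 : deriv g 0 = 0 := hmg.deriv_eq_zero
  have hmin : IsLocalMin g 0 := by
    refine isLocalMin_of_deriv_deriv_pos ?_ hd0 ?_
    · rw [hg2.deriv]; exact hc
    · exact hg1.self_of_nhds.continuousAt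
  have hconst : ∀ᶠ t in 𝓝 (0 : ℝ), g t = g 0 := by
    filter_upwards [hmg, hmin] with t h1 h2
    exact le_antisymm h1 h2
  have hderiv : ∀ᶠ t in 𝓝 (0 : ℝ), deriv g t = 0 := by
    filter_upwards [hconst.eventually_nhds] with t ht
    have : g =ᶠ[𝓝 t] fun _ => g 0 := ht
    rw [this.deriv_eq]
    simp
  have h5 : deriv (deriv g) 0 = 0 := by
    have : deriv g =ᶠ[𝓝 0] fun _ => 0 := hderiv
    rw [this.deriv_eq]
    simp
  rw [hg2.deriv] at h5
  exact absurd h5 hc.ne'

theorem contDiffAt_ofReal {φ : C2 → ℝ} {z : C2} {n : WithTop ℕ∞} (hφ : ContDiffAt ℝ n φ z) :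
    ContDiffAt ℝ n (fun y => (φ y : ℂ)) z :=
  Complex.ofRealCLM.contDiff.contDiffAt.comp z hφ

theorem fderiv_ofReal {φ : C2 → ℝ} {z : C2} (hφ : DifferentiableAt ℝ φ z) (v : C2) :
    fderiv ℝ (fun y => (φ y : ℂ)) z v = ((fderiv ℝ φ z v : ℝ) : ℂ) := by
  have h : fderiv ℝ (fun y => (φ y : ℂ)) z = Complex.ofRealCLM.comp (fderiv ℝ φ z) :=
    (Complex.ofRealCLM.hasFDerivAt.comp z hφ.hasFDerivAt).fderiv
  rw [h]
  rfl

theorem second_ofReal {φ : C2 → ℝ} {z : C2} (hφ : ContDiffAt ℝ 2 φ z) (u v : C2) :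
    fderiv ℝ (fderiv ℝ (fun y => (φ y : ℂ))) z u v =
      ((fderiv ℝ (fderiv ℝ φ) z u v : ℝ) : ℂ) := by
  have hφ' := contDiffAt_ofReal hφ
  rw [← fderiv_fderiv_apply hφ' u v]
  have h1 : ∀ᶠ y in 𝓝 z, DifferentiableAt ℝ φ y := by
    have := hφ.eventually (by simp)
    exact this.mono fun y hy => hy.differentiableAt (by norm_num)
  have h2 : (fun y => fderiv ℝ (fun y => (φ y : ℂ)) y v) =ᶠ[𝓝 z]
      fun y => ((fderiv ℝ φ y v : ℝ) : ℂ) := h1.mono fun y hy => fderiv_ofReal hy v
  rw [h2.fderiv_eq]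
  have h3 : DifferentiableAt ℝ (fderiv ℝ φ) z :=
    (hφ.fderiv_right (m := 1) (by norm_num)).differentiableAt (by norm_num)
  rw [fderiv_ofReal (h3.clm_apply (differentiableAt_const v)),
    fderiv_clm_apply h3 (differentiableAt_const v)]
  simp

/-- at a local maximum of a real function, `∂∂̄` is negative semidefinite -/
theorem lv_nonpos {φ : C2 → ℝ} {z : C2} (hφ : ContDiffAt ℝ 2 φ z) (hm : IsLocalMax φ z)
    (v : C2) : (∑ i, ∑ j, (v i * conj (v j)) * lv (fun y => (φ y : ℂ)) z i j).re ≤ 0 := by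
  have h := second_add_second (contDiffAt_ofReal hφ) v
  rw [second_ofReal hφ, second_ofReal hφ] at h
  have h1 := second_nonpos hφ hm v
  have h2 := second_nonpos hφ hm (Complex.I • v)
  have h3 := congrArg Complex.re h
  simp only [smul_eq_mul] at h3
  have h4 : ((4 : ℂ) * ∑ i, ∑ j, v i * conj (v j) * lv (fun y => (φ y : ℂ)) z i j).re =
      4 * (∑ i, ∑ j, v i * conj (v j) * lv (fun y => (φ y : ℂ)) z i j).re := by
    rw [Complex.mul_re]
    simp
  rw [h4, Complex.add_re, Complex.ofReal_re, Complex.ofReal_re] at h3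
  linarith

section
open scoped MatrixOrder

theorem exists_sq {A : Matrix (Fin 2) (Fin 2) ℂ} (hA : A.PosSemidef) :
    ∃ C : Matrix (Fin 2) (Fin 2) ℂ, A = Cᴴ * C :=
  CStarAlgebra.nonneg_iff_eq_star_mul_self.mp hA.nonneg

end

/-- the trace of a negative semidefinite form with respect to a positive definite one -/
theorem trace_inv_mul_nonpos {h H : Matrix (Fin 2) (Fin 2) ℂ} (hh : h.PosDef)
    (hH : ∀ v : C2, (∑ i, ∑ j, (v i * conj (v j)) * H i j).re ≤ 0) :
    ((h⁻¹ * H).trace).re ≤ 0 := by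
  obtain ⟨C, hC⟩ := exists_sq hh.inv.posSemidef
  have e : (h⁻¹ * H).trace = ∑ k, ∑ i, ∑ j, (C k i * conj (C k j)) * H i j := by
    rw [hC, Matrix.mul_assoc, Matrix.trace_mul_comm]
    simp only [Matrix.trace, Matrix.diag_apply, Matrix.mul_apply, Matrix.conjTranspose_apply,
      RCLike.star_def]
    refine Finset.sum_congr rfl fun k _ => ?_
    simp only [Fin.sum_univ_two]
    ring
  rw [e, Complex.re_sum]
  exact Finset.sum_nonpos fun k _ => hH _

end Vale.Agent.P267.H334
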