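import Vale.Agent.P267.H334.Liou

/-!
# P267, package XA-MAX (helper334), part 8: the vanishing statements (V1), (V2)
-/

set_option linter.unusedVariables false
set_option linter.unusedSectionVars false

open scoped Manifold ContDiff ComplexConjugate Matrix ComplexOrder
open MeasureTheory Set Filter Topology

noncomputable section

namespace Vale.Agent.P267.H334

open FL XT

/-! ### the weight -/

/-- the weight function `δ t - (N/κ) log (1 + e^{κ(R - t)})` -/
def wg (δ N κ R t : ℝ) : ℝ := δ * t - N / κ * Real.log (1 + Real.exp (κ * (R - t)))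

section wg
variable {δ N κ R : ℝ}

theorem one_add_exp_pos (s : ℝ) : 0 < 1 + Real.exp s := by positivity

theorem wg_smooth : ContDiff ℝ ∞ (wg δ N κ R) := by
  unfold wg
  refine (contDiff_const.mul contDiff_id).sub (contDiff_const.mul ?_)
  refine ContDiff.log ?_ fun t => (one_add_exp_pos _).ne'
  exact contDiff_const.add (Real.contDiff_exp.comp (contDiff_const.mul (contDiff_const.sub contDiff_id)))

theorem hasDerivAt_E (t : ℝ) :
    HasDerivAt (fun t => Real.exp (κ * (R - t))) (-κ * Real.exp (κ * (R - t))) t := by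
  have h1 : HasDerivAt (fun t => κ * (R - t)) (κ * (-1)) t :=
    ((hasDerivAt_id t).const_sub R).const_mul κ
  have := h1.exp
  convert this using 1
  ring

theorem hasDerivAt_wg (hκ : κ ≠ 0) (t : ℝ) : HasDerivAt (wg δ N κ R)
    (δ + N * (Real.exp (κ * (R - t)) / (1 + Real.exp (κ * (R - t))))) t := by
  have h1 := ((hasDerivAt_E (κ := κ) (R := R) t).const_add 1).log (one_add_exp_pos _).ne'
  have h2 := ((hasDerivAt_id t).const_mul δ).sub (h1.const_mul (N / κ))
  have e : (fun t => wg δ N κ R t) = fun t => δ * id t - N / κ * Real.log (1 + Real.exp (κ * (R - t)))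
      := rfl
  change HasDerivAt (fun t => wg δ N κ R t) _ t
  rw [e]
  refine HasDerivAt.congr_deriv h2 ?_
  have := (one_add_exp_pos (κ * (R - t))).ne'
  field_simp
  ring

theorem deriv_wg (hκ : κ ≠ 0) : deriv (wg δ N κ R) = fun t =>
    δ + N * (Real.exp (κ * (R - t)) / (1 + Real.exp (κ * (R - t)))) :=
  funext fun t => (hasDerivAt_wg hκ t).deriv

theorem deriv2_wg (hκ : κ ≠ 0) (t : ℝ) : deriv (deriv (wg δ N κ R)) t =
    -(κ * N * (Real.exp (κ * (R - t)) / (1 + Real.exp (κ * (R - t))) ^ 2)) := by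
  rw [deriv_wg hκ]
  have h1 := hasDerivAt_E (κ := κ) (R := R) t
  have h2 := (((h1.div (h1.const_add 1) (one_add_exp_pos _).ne')).const_mul N).const_add δ
  have h3 : HasDerivAt (fun t => δ + N * (Real.exp (κ * (R - t)) / (1 + Real.exp (κ * (R - t)))))
      _ t := h2
  rw [h3.deriv]
  have := (one_add_exp_pos (κ * (R - t))).ne'
  field_simp
  ring

/-- the differential inequality -/
theorem wg_ineq {c A : ℝ} (hc : 0 < c) (hA : 0 < A) (hδ : 0 ≤ δ) (hN : 0 ≤ N)
    (hκ : κ = c / (2 * A)) {G : ℝ} (hG : G ≤ A) (t : ℝ) :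
    c * δ + (if t ≤ R then c * N / 4 else 0) ≤
      c * deriv (wg δ N κ R) t + deriv (deriv (wg δ N κ R)) t * G := by
  have hκ0 : 0 < κ := by rw [hκ]; positivity
  rw [deriv2_wg hκ0.ne', deriv_wg hκ0.ne']
  set E := Real.exp (κ * (R - t)) with hE
  have hE0 : 0 < E := Real.exp_pos _
  have h1 : -(κ * N * (E / (1 + E) ^ 2)) * A ≤ -(κ * N * (E / (1 + E) ^ 2)) * G := by
    have : 0 ≤ κ * N * (E / (1 + E) ^ 2) := by positivity
    nlinarith
  have h2 : κ * A = c / 2 := by rw [hκ]; field_simp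
  have h3 : E / (1 + E) ^ 2 ≤ E / (1 + E) := by
    apply div_le_div_of_nonneg_left hE0.le (by positivity)
    nlinarith
  have h4 : -(κ * N * (E / (1 + E) ^ 2)) * A ≥ -(c / 2 * N * (E / (1 + E))) := by
    have : κ * N * (E / (1 + E) ^ 2) * A = c / 2 * N * (E / (1 + E) ^ 2) := by
      rw [← h2]; ring
    have h5 : c / 2 * N * (E / (1 + E) ^ 2) ≤ c / 2 * N * (E / (1 + E)) :=
      mul_le_mul_of_nonneg_left h3 (by positivity)
    linarith
  have h6 : (if t ≤ R then c * N / 4 else 0) ≤ c / 2 * N * (E / (1 + E)) := by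
    split_ifs with ht
    · have hE1 : 1 ≤ E := by
        rw [hE]
        apply Real.one_le_exp
        have : 0 ≤ R - t := by linarith
        positivity
      have h7 : 1 / 2 ≤ E / (1 + E) := by
        rw [div_le_div_iff₀ (by norm_num) (by positivity)]
        linarith
      have h8 : c / 2 * N * (1 / 2) ≤ c / 2 * N * (E / (1 + E)) :=
        mul_le_mul_of_nonneg_left h7 (by positivity)
      linarith
    · positivity
  have h9 : c * (δ + N * (E / (1 + E))) = c * δ + c * N * (E / (1 + E)) := by ring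
  rw [h9]
  nlinarith

theorem wg_le_out (hκ : 0 < κ) (hN : 0 ≤ N) (t : ℝ) : wg δ N κ R t ≤ δ * t := by
  have h1 : 0 ≤ Real.log (1 + Real.exp (κ * (R - t))) := Real.log_nonneg (by
    have := Real.exp_pos (κ * (R - t))
    linarith)
  have h2 : 0 ≤ N / κ := by positivity
  have := mul_nonneg h2 h1
  rw [wg]
  linarith

theorem wg_le_in (hκ : 0 < κ) (hN : 0 ≤ N) (t : ℝ) : wg δ N κ R t ≤ δ * t - N * (R - t) := by
  have h1 : κ * (R - t) ≤ Real.log (1 + Real.exp (κ * (R - t))) := by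
    have := Real.log_le_log (Real.exp_pos (κ * (R - t)))
      (by linarith : Real.exp (κ * (R - t)) ≤ 1 + Real.exp (κ * (R - t)))
    rwa [Real.log_exp] at this
  have h2 : 0 ≤ N / κ := by positivity
  have h3 := mul_le_mul_of_nonneg_left h1 h2
  have h4 : N / κ * (κ * (R - t)) = N * (R - t) := by field_simp
  rw [wg]
  linarith

end wg

theorem exists_small {C ε δ : ℝ} (hδ : 0 < δ) (hε : 0 < ε) :
    ∃ R : ℝ, ∀ t, R < t → C * Real.exp (-(δ * t)) < ε := by
  have h1 : Tendsto (fun t : ℝ => C * Real.exp (-(δ * t))) atTop (𝓝 (C * 0)) := by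
    refine Tendsto.const_mul C ?_
    exact Real.tendsto_exp_neg_atTop_nhds_zero.comp (tendsto_id.const_mul_atTop hδ)
  rw [mul_zero] at h1
  obtain ⟨R, hR⟩ := (h1.eventually (gt_mem_nhds hε)).exists_forall_of_atTop
  exact ⟨R, fun t ht => hR t ht.le⟩

/-! ### the curvature of a bundle of compactly supported class -/

section curv

variable {X : Type} [TopologicalSpace X] [ChartedSpace C2 X] [IsManifold 𝓘(ℂ, C2) ω X]
variable {ι : Type} [Fintype ι] [DecidableEq ι]
variable {h : X → Matrix (Fin 2) (Fin 2) ℂ}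

theorem F11_eq_zero {L : LB X ι} {x : X} {P₀ : Matrix ι ι ℂ} (hP : ∀ᶠ y in 𝓝 x, L.P y = P₀) :
    L.F11 x = 0 := by
  have hc : ContinuousAt (chartAt C2 x).symm (chartAt C2 x x) :=
    (chartAt C2 x).continuousAt_symm (mem_chart_target C2 x)
  have hxx : (chartAt C2 x).symm (chartAt C2 x x) = x := (chartAt C2 x).left_inv (mem_chart_source C2 x)
  have h1 : ∀ᶠ z in 𝓝 (chartAt C2 x x), L.P ((chartAt C2 x).symm z) = P₀ := by
    have := hc.tendsto
    rw [hxx] at this
    exact this.eventually hP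
  have h2 : ∀ k, (Matrix.of fun i j => del0 (fun y => L.P y i j) x k) = 0 := by
    intro k
    ext i j
    simp only [Matrix.of_apply, del0, Matrix.zero_apply]
    rw [dz_congr (g := fun _ => P₀ i j) (h1.mono fun z hz => by rw [hz]), dz_const]
  ext k l
  simp only [LB.F11, Matrix.of_apply, h2, zero_mul, mul_zero, sub_zero, Matrix.trace_zero,
    Matrix.zero_apply]

theorem trh_conjTranspose (hh : IsHerm h) (g : X → Matrix (Fin 2) (Fin 2) ℂ) (x : X) :
    trh h (fun y => (g y)ᴴ) x = conj (trh h g x) := by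
  have h1 : ((h x)⁻¹)ᴴ = (h x)⁻¹ := by
    rw [Matrix.conjTranspose_nonsing_inv, (hh.posDef x).isHermitian.eq]
  have h2 : conj (trh h g x) = (((h x)⁻¹ * g x)ᴴ).trace := by
    rw [Matrix.trace_conjTranspose]
    rfl
  rw [h2, Matrix.conjTranspose_mul, h1, Matrix.trace_mul_comm]
  rfl

theorem dbar10_neg_conj (a : X → Fin 2 → ℂ) (x : X) :
    dbar10 (fun y i => -conj (a y i)) x = (del1 a x)ᴴ := by
  have h1 := congrFun (H469.dbar10_cj (fun y i => -(a y i))) x
  have h2 : H469.cj1 (fun y i => -(a y i)) = fun (y : X) i => -conj (a y i) := by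
    funext y i
    simp [H469.cj1]
  rw [h2] at h1
  rw [h1]
  ext i j
  have h3 : (fun z => loc1 0 (chartAt C2 x) (fun y i => -(a y i)) z i) =
      fun z => -loc1 0 (chartAt C2 x) a z i := by
    funext z
    simp [loc1, Finset.sum_neg_distrib]
  simp only [H469.cj11, Matrix.of_apply, Matrix.conjTranspose_apply, del1, h3, dz_neg, map_neg,
    neg_neg, RCLike.star_def]

theorem trh_chern_end (hh : IsHerm h) {L : LB X ι} {a : X → Fin 2 → ℂ} {x : X}
    {P₀ : Matrix ι ι ℂ} (hP : ∀ᶠ y in 𝓝 x, L.P y = P₀) :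
    (trh h (L.chern a).f11 x).re = 2 * (trh h (del1 a) x).re := by
  have h1 : (L.chern a).f11 x = del1 a x + (del1 a x)ᴴ := by
    change LB.F11 L x + (del1 a x + dbar10 (fun y i => -conj (a y i)) x) = _
    rw [F11_eq_zero hP, zero_add, dbar10_neg_conj]
  have h2 : trh h (L.chern a).f11 x = trh h (del1 a) x + trh h (fun y => (del1 a y)ᴴ) x := by
    rw [trh, h1, Matrix.mul_add, Matrix.trace_add]
    rfl
  rw [h2, trh_conjTranspose hh, Complex.add_re, Complex.conj_re]
  ring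

end curv

variable {M : Type} [TopologicalSpace M] [ChartedSpace C2 M] [IsManifold 𝓘(ℂ, C2) ω M]
variable {D : XTData M} {ι : Type} [Fintype ι] [DecidableEq ι]
variable {L : LB M ι} {i₀ : ι} {a : M → Fin 2 → ℂ} {R N : ℝ}

/-- decay of the curvature at the ends -/
theorem curv_end (hE : D.EndTriv L i₀ a R N) :
    ∃ C, 0 ≤ C ∧ ∀ x, R < |D.f x| →
      |(trh D.h (L.chern a).f11 x).re| ≤ C * Real.exp (-(N * |D.f x|)) := by
  obtain ⟨C, hC⟩ := hE.decay'
  refine ⟨4 * |C|, by positivity, fun x hx => ?_⟩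
  have h0 : ∀ᶠ y in 𝓝 x, L.P y = Matrix.single i₀ i₀ 1 := by
    have : ∀ᶠ y in 𝓝 x, R < |D.f y| := (f_cont D).abs.continuousAt.eventually (lt_mem_nhds hx)
    exact this.mono fun y hy => hE.ends y hy.le
  rw [trh_chern_end D.herm h0, abs_mul, abs_two]
  have h1 : |(trh D.h (del1 a) x).re| ≤ 2 * (C * Real.exp (-(N * |D.f x|))) := by
    refine (Complex.abs_re_le_norm _).trans ?_
    have h3 : 0 ≤ C * Real.exp (-(N * |D.f x|)) := (norm_nonneg _).trans (hC x)
    linarith [hC x]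
  have h2 : C * Real.exp (-(N * |D.f x|)) ≤ |C| * Real.exp (-(N * |D.f x|)) :=
    mul_le_mul_of_nonneg_right (le_abs_self C) (Real.exp_pos _).le
  linarith

/-- the curvature is bounded -/
theorem exists_cv_le (hE : D.EndTriv L i₀ a R N) (hN : 0 ≤ N) (κ : ℤ) :
    ∃ B, ∀ x, cv D κ L a x ≤ B := by
  obtain ⟨C, hC0, hC⟩ := curv_end hE
  obtain ⟨A, hA⟩ := exists_ric_le D
  have hcont := continuous_chern D.herm L hE.hol.smooth
  obtain ⟨B, hB⟩ := ((D.f_proper (-R) R).image hcont.abs).bddAbove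
  refine ⟨1 / 2 * (max B C) + |(κ : ℝ)| / 2 * A, fun x => ?_⟩
  have h1 : |(trh D.h (L.chern a).f11 x).re| ≤ max B C := by
    by_cases hx : |D.f x| ≤ R
    · exact (hB ⟨x, by rw [mem_preimage, mem_Icc, ← abs_le]; exact hx, rfl⟩).trans (le_max_left _ _)
    · refine (hC x (not_le.1 hx)).trans (le_trans ?_ (le_max_right _ _))
      have : Real.exp (-(N * |D.f x|)) ≤ 1 := by
        rw [Real.exp_le_one_iff]
        have := mul_nonneg hN (abs_nonneg (D.f x))
        linarith
      exact mul_le_of_le_one_right hC0 this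
  have h2 : ((κ : ℝ) / 2) * ric D.h x ≤ |(κ : ℝ)| / 2 * A := by
    have h3 : ((κ : ℝ) / 2) * ric D.h x ≤ |((κ : ℝ) / 2) * ric D.h x| := le_abs_self _
    rw [abs_mul, abs_div, abs_two] at h3
    exact h3.trans (mul_le_mul_of_nonneg_left (hA x) (by positivity))
  have h4 := (le_abs_self _).trans h1
  rw [cv]
  linarith

/-- for functions the curvature tends to `0` at the ends -/
theorem exists_cv_small (hE : D.EndTriv L i₀ a R N) (hN : 0 < N) {ε : ℝ} (hε : 0 < ε) :
    ∃ R' : ℝ, ∀ x, R' < |D.f x| → cv D 0 L a x < ε := by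
  obtain ⟨C, hC0, hC⟩ := curv_end hE
  obtain ⟨R₁, hR₁⟩ := exists_small (C := C) hN hε
  refine ⟨max R R₁, fun x hx => ?_⟩
  have h1 := hC x (lt_of_le_of_lt (le_max_left _ _) hx)
  have h2 := hR₁ _ (lt_of_le_of_lt (le_max_right _ _) hx)
  have h3 := (le_abs_self _).trans h1
  have h4 := mul_nonneg hC0 (Real.exp_pos (-(N * |D.f x|))).le
  rw [cv]
  push_cast
  linarith

/-- **(V1)**, pointwise form -/
theorem van1 {κ : ℤ} {u : M → EuclideanSpace ℂ ι}
    (ha : Reg1 ∞ 0 a) (hu : Reg0 ∞ κ u) (hs : L.Sec u) (hol : ∀ x, L.db0 a κ u x = 0)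
    {B : ℝ} (hB : ∀ x, cv D κ L a x ≤ B)
    (hout : ∀ ε > 0, ∃ R' : ℝ, ∀ x, R' < D.f x → cv D κ L a x < ε)
    {δ N : ℝ} (hδ : 0 < δ) {C : ℝ}
    (h1 : ∀ x, 0 ≤ D.f x → n0 D.h κ u x ≤ C * Real.exp (-(δ * D.f x)))
    (h2 : ∀ x, D.f x ≤ 0 → n0 D.h κ u x ≤ C * Real.exp (N * |D.f x|)) : ∀ x, u x = 0 := by
  obtain ⟨A, hA0, hA⟩ := exists_grad2_le D
  have hc := D.c_pos
  obtain ⟨R, hR⟩ := hout (D.c * (δ / 2)) (by positivity)
  set κ₀ : ℝ := D.c / (2 * A) with hκ
  have hκ0 : 0 < κ₀ := by rw [hκ]; positivity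
  set N₁ : ℝ := 4 * |B| / D.c + |N| with hN₁
  have hN₁0 : 0 ≤ N₁ := by positivity
  have hN₁B : B ≤ D.c * N₁ / 4 := by
    have e : D.c * N₁ / 4 = |B| + D.c * |N| / 4 := by rw [hN₁]; field_simp
    rw [e]
    have := le_abs_self B
    have := mul_nonneg hc.le (abs_nonneg N)
    linarith
  have hN₁N : N ≤ N₁ := by
    rw [hN₁]
    have := le_abs_self N
    have : 0 ≤ 4 * |B| / D.c := by positivity
    linarith
  refine vmax D ha hu hs hol (g := wg (δ / 2) N₁ κ₀ R) wg_smooth (fun x => ?_) (fun ε hε => ?_)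
  · have key := wg_ineq (δ := δ / 2) (R := R) hc hA0 (by positivity) hN₁0 hκ (hA x) (D.f x)
    refine lt_of_lt_of_le ?_ key
    split_ifs with h
    · have := hB x
      have : 0 < D.c * (δ / 2) := by positivity
      linarith
    · have := hR x (not_le.1 h)
      linarith
  · obtain ⟨R₂, hR₂⟩ := exists_small (C := |C| * max 1 (Real.exp (-(N₁ * R)))) (half_pos hδ) hε
    refine ⟨R₂, fun x hx => lt_of_le_of_lt ?_ (hR₂ _ hx)⟩
    have hm1 : (1 : ℝ) ≤ max 1 (Real.exp (-(N₁ * R))) := le_max_left _ _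
    rcases le_total 0 (D.f x) with h | h
    · have e1 := (h1 x h).trans (mul_le_mul_of_nonneg_right (le_abs_self C) (Real.exp_pos _).le)
      have e2 := Real.exp_le_exp.2 (wg_le_out (δ := δ / 2) (R := R) hκ0 hN₁0 (D.f x))
      have e3 := mul_le_mul e1 e2 (Real.exp_pos _).le (by positivity)
      refine e3.trans ?_
      rw [mul_assoc, ← Real.exp_add, abs_of_nonneg h]
      have e4 : -(δ * D.f x) + δ / 2 * D.f x = -(δ / 2 * D.f x) := by ring
      rw [e4]
      refine mul_le_mul_of_nonneg_right ?_ (Real.exp_pos _).le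
      exact le_mul_of_one_le_right (abs_nonneg C) hm1
    · have e1 := (h2 x h).trans (mul_le_mul_of_nonneg_right (le_abs_self C) (Real.exp_pos _).le)
      have e2 := Real.exp_le_exp.2 (wg_le_in (δ := δ / 2) (R := R) hκ0 hN₁0 (D.f x))
      have e3 := mul_le_mul e1 e2 (Real.exp_pos _).le (by positivity)
      refine e3.trans ?_
      rw [mul_assoc, ← Real.exp_add, mul_assoc]
      refine mul_le_mul_of_nonneg_left ?_ (abs_nonneg C)
      have e5 : N * |D.f x| + (δ / 2 * D.f x - N₁ * (R - D.f x)) ≤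
          -(N₁ * R) + -(δ / 2 * |D.f x|) := by
        rw [abs_of_nonpos h]
        nlinarith
      refine (Real.exp_le_exp.2 e5).trans ?_
      rw [Real.exp_add]
      exact mul_le_mul_of_nonneg_right (le_max_right _ _) (Real.exp_pos _).le

/-- **(V2)**, pointwise form: the needed rate of decay depends only on the curvature bound -/
theorem van2 {κ : ℤ} {u : M → EuclideanSpace ℂ ι}
    (ha : Reg1 ∞ 0 a) (hu : Reg0 ∞ κ u) (hs : L.Sec u) (hol : ∀ x, L.db0 a κ u x = 0)
    {B : ℝ} (hB : ∀ x, cv D κ L a x < D.c * B) {N : ℝ} (hN : |B| < N) {C : ℝ}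
    (h1 : ∀ x, n0 D.h κ u x ≤ C * Real.exp (-(N * |D.f x|))) : ∀ x, u x = 0 := by
  refine vmax D ha hu hs hol (g := fun t => B * t) (contDiff_const.mul contDiff_id)
    (fun x => ?_) (fun ε hε => ?_)
  · have e1 : deriv (fun t : ℝ => B * t) = fun _ => B := by
      funext t
      simpa using ((hasDerivAt_id t).const_mul B).deriv
    rw [e1]
    simp [hB x]
  · obtain ⟨R₂, hR₂⟩ := exists_small (C := C) (sub_pos.2 hN) hε
    refine ⟨R₂, fun x hx => lt_of_le_of_lt ?_ (hR₂ _ hx)⟩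
    have hC : 0 ≤ C := by
      by_contra hlt
      push Not at hlt
      have := (n0_nonneg D.herm (κ := κ) (u := u) (x := x)).trans (h1 x)
      have h3 := mul_neg_of_neg_of_pos hlt (Real.exp_pos (-(N * |D.f x|)))
      linarith
    refine (mul_le_mul_of_nonneg_right (h1 x) (Real.exp_pos _).le).trans ?_
    rw [mul_assoc, ← Real.exp_add]
    refine mul_le_mul_of_nonneg_left (Real.exp_le_exp.2 ?_) hC
    have e1 : B * D.f x ≤ |B| * |D.f x| := by
      rw [← abs_mul]
      exact le_abs_self _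
    linarith

/-! ### the interface of helper877 -/

theorem n0_le_of_p0 {κ : ℤ} {u : M → EuclideanSpace ℂ ι} (hu : Reg0 ∞ κ u) {x : M} :
    n0 D.h κ u x ≤ D.p0 κ u ⌊D.f x⌋ :=
  D.le_prof (continuous_n0 D.herm hu) (D.mem_slab_floor x)

/-- **(V1)**: no nonzero holomorphic section of `(L, a)` decays exponentially outward and grows at
most exponentially inward -/
theorem van_of_out (hE : D.EndTriv L i₀ a R N) (hN : 0 < N) {ρ : ℤ → ℝ} (hρ0 : ∀ j, 0 ≤ ρ j)
    {δ N' C : ℝ} (hδ : 0 < δ) (h1 : ∀ j : ℤ, 0 ≤ j → ρ j ≤ C * Real.exp (-(δ * j)))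
    (h2 : ∀ j : ℤ, j ≤ 0 → ρ j ≤ C * Real.exp (N' * |(j : ℝ)|)) : D.Van 0 L a ρ := by
  intro u hu hs hol ⟨A, hA⟩
  obtain ⟨B, hB⟩ := exists_cv_le hE hN.le 0
  have hC : 0 ≤ C := by
    by_contra hlt
    push Not at hlt
    have h3 := (hρ0 0).trans (h1 0 le_rfl)
    simp at h3
    linarith
  have hp : ∀ x, n0 D.h 0 u x ≤ |A| * ρ ⌊D.f x⌋ := fun x =>
    ((n0_le_of_p0 hu).trans (hA _)).trans (mul_le_mul_of_nonneg_right (le_abs_self A) (hρ0 _))
  refine van1 (D := D) hE.hol.smooth hu hs (fun x => funext fun i => hol x i) hB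
    (fun ε hε => ?_) hδ (C := |A| * C * Real.exp (δ + |N'|)) (N := |N'|) (fun x hx => ?_)
    (fun x hx => ?_)
  · obtain ⟨R', hR'⟩ := exists_cv_small hE hN hε
    exact ⟨R', fun x hx => hR' x (lt_of_lt_of_le hx (le_abs_self _))⟩
  · have hj : 0 ≤ ⌊D.f x⌋ := Int.floor_nonneg.2 hx
    refine (hp x).trans ((mul_le_mul_of_nonneg_left (h1 _ hj) (abs_nonneg A)).trans ?_)
    rw [← mul_assoc, mul_assoc (|A| * C), ← Real.exp_add]
    refine mul_le_mul_of_nonneg_left (Real.exp_le_exp.2 ?_) (by positivity)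
    have := (Int.lt_floor_add_one (D.f x)).le
    have h3 := mul_le_mul_of_nonneg_left this hδ.le
    have := abs_nonneg N'
    nlinarith
  · have hj : ⌊D.f x⌋ ≤ 0 := by
      have h3 := Int.floor_le (D.f x)
      have : (⌊D.f x⌋ : ℝ) ≤ 0 := h3.trans hx
      exact_mod_cast this
    refine (hp x).trans ((mul_le_mul_of_nonneg_left (h2 _ hj) (abs_nonneg A)).trans ?_)
    rw [← mul_assoc, mul_assoc (|A| * C), ← Real.exp_add]
    refine mul_le_mul_of_nonneg_left (Real.exp_le_exp.2 ?_) (by positivity)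
    have h3 := (Int.lt_floor_add_one (D.f x)).le
    have h4 : |(⌊D.f x⌋ : ℝ)| ≤ |D.f x| + 1 := by
      rw [abs_of_nonpos (by exact_mod_cast hj), abs_of_nonpos hx]
      linarith
    have h5 : N' * |(⌊D.f x⌋ : ℝ)| ≤ |N'| * |(⌊D.f x⌋ : ℝ)| :=
      mul_le_mul_of_nonneg_right (le_abs_self N') (abs_nonneg _)
    have h6 := mul_le_mul_of_nonneg_left h4 (abs_nonneg N')
    linarith

/-- **(V2)**: there is a rate `N'` such that no nonzero holomorphic section of `K^κ ⊗ (L, a)`
decays like `e^{-N'|f|}` -/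
theorem exists_van_rate (hE : D.EndTriv L i₀ a R N) (hN : 0 ≤ N) (κ : ℤ) :
    ∃ N' : ℝ, 0 ≤ N' ∧ ∀ ρ : ℤ → ℝ, (∀ j, 0 ≤ ρ j) →
      (∃ C, ∀ j : ℤ, ρ j ≤ C * Real.exp (-(N' * |(j : ℝ)|))) → D.Van κ L a ρ := by
  obtain ⟨B, hB⟩ := exists_cv_le hE hN κ
  have hc := D.c_pos
  set B' : ℝ := (|B| + 1) / D.c with hB'
  have hB'0 : 0 ≤ B' := by positivity
  refine ⟨B' + 1, by positivity, fun ρ hρ0 ⟨C, hC⟩ u hu hs hol ⟨A, hA⟩ => ?_⟩
  have hC0 : 0 ≤ C := by
    by_contra hlt
    push Not at hlt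
    have h3 := (hρ0 0).trans (hC 0)
    simp at h3
    linarith
  have hp : ∀ x, n0 D.h κ u x ≤ |A| * ρ ⌊D.f x⌋ := fun x =>
    ((n0_le_of_p0 hu).trans (hA _)).trans (mul_le_mul_of_nonneg_right (le_abs_self A) (hρ0 _))
  refine van2 (D := D) hE.hol.smooth hu hs (fun x => funext fun i => hol x i) (B := B')
    (fun x => ?_) (N := B' + 1) (by rw [abs_of_nonneg hB'0]; linarith)
    (C := |A| * C * Real.exp (B' + 1)) (fun x => ?_)
  · have : D.c * B' = |B| + 1 := by rw [hB']; field_simp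
    rw [this]
    have := hB x
    have := le_abs_self B
    linarith
  · refine (hp x).trans ((mul_le_mul_of_nonneg_left (hC _) (abs_nonneg A)).trans ?_)
    rw [← mul_assoc, mul_assoc (|A| * C), ← Real.exp_add]
    refine mul_le_mul_of_nonneg_left (Real.exp_le_exp.2 ?_) (by positivity)
    have h3 : |D.f x| - 1 ≤ |(⌊D.f x⌋ : ℝ)| := by
      have h4 := Int.floor_le (D.f x)
      have h5 := Int.lt_floor_add_one (D.f x)
      have h6 : |D.f x| ≤ |(⌊D.f x⌋ : ℝ)| + |D.f x - ⌊D.f x⌋| := by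
        have := abs_add_le (⌊D.f x⌋ : ℝ) (D.f x - ⌊D.f x⌋)
        simpa using this
      have h7 : |D.f x - ⌊D.f x⌋| ≤ 1 := by
        rw [abs_of_nonneg (by linarith)]
        linarith
      linarith
    have h4 := mul_le_mul_of_nonneg_left h3 (by positivity : 0 ≤ B' + 1)
    linarith

/-- **(V2)**: no nonzero holomorphic section of `K^κ ⊗ (L, a)` with superexponential decay at both
ends -/
theorem van_of_super (hE : D.EndTriv L i₀ a R N) (hN : 0 ≤ N) (κ : ℤ) {ρ : ℤ → ℝ}
    (hρ0 : ∀ j, 0 ≤ ρ j) (hρ : ∀ N' : ℝ, ∃ C, ∀ j : ℤ, ρ j ≤ C * Real.exp (-(N' * |(j : ℝ)|))) :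
    D.Van κ L a ρ := by
  obtain ⟨N', -, h⟩ := exists_van_rate hE hN κ
  exact h ρ hρ0 (hρ N')

/-- the trivial bundle -/
theorem endTriv_triv (i₀ : ι) (R N : ℝ) :
    D.EndTriv (LB.triv i₀) i₀ (fun _ _ => (0 : ℂ)) R N where
  hol := {
    smooth := fun e he => by
      have : loc1 0 e (fun (_ : M) (_ : Fin 2) => (0 : ℂ)) = fun _ _ => 0 := by
        funext z i
        simp [loc1]
      rw [this]
      exact contDiffOn_const
    integrable := fun x => by
      have h1 : dbar1 0 (fun (_ : M) (_ : Fin 2) => (0 : ℂ)) x = 0 := by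
        simp [dbar1, loc1, dzb]
      have h2 : (LB.triv i₀ : LB M ι).F02 x = 0 := by
        have h3 : ∀ k, (Matrix.of fun i j => dbar0 0 (fun y => (LB.triv i₀ : LB M ι).P y i j) x k)
            = 0 := by
          intro k
          ext i j
          simp only [LB.triv, Matrix.of_apply, Matrix.zero_apply, dbar0, LB.loc0_zero]
          exact dzb_const _ _ _
        simp [LB.F02, h3]
      rw [h1, h2, add_zero] }
  ends x _ := rfl
  decay := ⟨0, fun x => by simp [n1, nsq1]⟩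
  decay' := ⟨0, fun x => by
    have h1 : del1 (fun (_ : M) (_ : Fin 2) => (0 : ℂ)) x = 0 := by
      ext i j
      simp [del1, loc1, dz]
    rw [trh, h1]
    simp⟩

end Vale.Agent.P267.H334
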